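import Mathlib
import Vale.Agent.P333.Bdl.B1

/-!
Cells with one contact and three blocks, factor eight sevenths: counting bad configurations.
-/

namespace Vale.Agent.P333.R2.H205

open Vale.Agent.P333 Finset

/-- Rises inside a cell whose contact is off. -/
def cellOff (g : Fin 3 → Bool) : ℕ :=
  rise false (g 0) + rise (g 0) (g 1) + rise (g 1) (g 2)

/-- Marginal value of a contact between the blocks `p` and `n`, `w` tells whether it counts. -/
def alp (p n w : Bool) : ℕ :=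
  if w then (if p then (if n then 15 else 7) else (if n then 7 else 0)) else 8 * (p && n).toNat

/-- Cells: the bit `w` of the contact and the bits of the three blocks. -/
abbrev Cell := Bool × (Fin 3 → Bool)

/-- The last block of a cell. -/
def lastB (l : Cell) : Bool := l.2 2

/-- Sum of the marginal values. -/
def sumA (K : ℕ) (l : Fin K → Cell) : ℕ := csA (fun _ x => lastB x) (fun q x => alp q (x.2 0) x.1) K false l

/-- Sum of the marginal values minus seven. -/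
def sumB (K : ℕ) (l : Fin K → Cell) : ℕ :=
  csA (fun _ x => lastB x) (fun q x => alp q (x.2 0) x.1 - 7) K false l

/-- Sum of the marginal values minus eight. -/
def sumD (K : ℕ) (l : Fin K → Cell) : ℕ :=
  csA (fun _ x => lastB x) (fun q x => alp q (x.2 0) x.1 - 8) K false l

/-- Rises with all contacts off. -/
def sumOff (K : ℕ) (l : Fin K → Cell) : ℕ := ∑ p, cellOff (l p).2

/-- Number of marked contacts. -/
def wOnes (K : ℕ) (l : Fin K → Cell) : ℕ := ∑ p, (l p).1.toNat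

/-- Number of blocks that are on. -/
def bOnes (K : ℕ) (l : Fin K → Cell) : ℕ := ∑ p, bones (l p).2

/-- The bad event at the level of cells. -/
def bad1 (s K : ℕ) (l : Fin K → Cell) (f : Fin (K * 3) → Bool) : Prop :=
  s + 8 * (sumOff K l + linRise (K * 3) f) ≤ sumA K l ∧
  s + 8 * (sumOff K l + linRise (K * 3) f) ≤ sumB K l + 7 * (K - wOnes K l) ∧
  s + 8 * (sumOff K l + linRise (K * 3) f) ≤ sumD K l + 8 * (K - wOnes K l) ∧
  s + 8 * (sumOff K l + linRise (K * 3) f) ≤ 15 * (K - wOnes K l)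

/-- Contact factor. -/
noncomputable def cellG (a b d z : ℝ) (q n : Bool) : ℝ :=
  a ^ alp q n false * b ^ (alp q n false - 7) * d ^ (alp q n false - 8)
    + z * (a ^ alp q n true * b ^ (alp q n true - 7) * d ^ (alp q n true - 8))

/-- Certificate for the event `bad1`. -/
structure Cert1 where
  lam : ℝ
  a : ℝ
  b : ℝ
  d : ℝ
  c : ℝ
  B : ℝ
  z : ℝ
  y₀ : ℝ
  y₁ : ℝ
  R₀ : ℝ
  R₁ : ℝ
  v₀ : Bool → ℝ
  v₁ : Bool → ℝ
  lam_pos : 0 < lam
  lam_le : lam ≤ 3/4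
  a_ge : 1 ≤ a
  b_ge : 1 ≤ b
  d_ge : 1 ≤ d
  c_ge : 1 ≤ c
  habc : 1 ≤ a * b * d * c * lam
  hB : b ^ 7 * d ^ 8 * c ^ 15 ≤ B
  z_pos : 0 < z
  y₀_pos : 0 < y₀
  y₁_pos : 0 < y₁
  R₀_pos : 0 < R₀
  R₁_pos : 0 < R₁
  v₀_ge : ∀ q, 1 ≤ v₀ q
  v₁_ge : ∀ q, 1 ≤ v₁ q
  v₀_f : v₀ false = 1
  v₁_f : v₁ false = 1
  step₀ : ∀ q, cellG a b d z q false * cellT (lam ^ 8) y₀ (cellT (lam ^ 8) y₀ v₀) false
    + cellG a b d z q true * (lam ^ 8 * y₀) * cellT (lam ^ 8) y₀ (cellT (lam ^ 8) y₀ v₀) true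
      ≤ R₀ * v₀ q
  step₁ : ∀ q, cellT (lam ^ 8) y₁ v₁ q ≤ R₁ * v₁ q

theorem sum_fun3 (F : (Fin 3 → Bool) → ℝ) :
    ∑ g : Fin 3 → Bool, F g = ∑ b0 : Bool, ∑ b1 : Bool, ∑ b2 : Bool, F ![b0, b1, b2] := by
  rw [sum_fun_succ]
  apply sum_congr rfl; intro b0 _
  rw [sum_fun_succ]
  apply sum_congr rfl; intro b1 _
  rw [sum_fun_succ]
  apply sum_congr rfl; intro b2 _
  rw [Fintype.sum_unique]
  rfl

/-- Evaluation of the cell step. -/
theorem cell_step (L a b d z y : ℝ) (v : Bool → ℝ) (q : Bool) :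
    stepA (fun _ (x : Cell) => lastB x) (fun q x => L ^ cellOff x.2 * a ^ alp q (x.2 0) x.1
      * b ^ (alp q (x.2 0) x.1 - 7) * d ^ (alp q (x.2 0) x.1 - 8) * z ^ x.1.toNat
      * y ^ bones x.2) v q
    = cellG a b d z q false * cellT L y (cellT L y v) false
    + cellG a b d z q true * (L * y) * cellT L y (cellT L y v) true := by
  unfold stepA
  rw [Fintype.sum_prod_type]
  simp only [sum_fun3, Fintype.sum_bool]
  cases q <;>
  simp [cellOff, rise, alp, bones, lastB, cellG, cellT, Fin.sum_univ_succ] <;> ring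

namespace Cert1

variable (C : Cert1)

theorem sum₀ (K : ℕ) :
    ∑ l : Fin K → Cell, (C.lam ^ 8) ^ sumOff K l * C.a ^ sumA K l * C.b ^ sumB K l
      * C.d ^ sumD K l * C.z ^ wOnes K l * C.y₀ ^ bOnes K l ≤ C.R₀ ^ K := by
  have hlam : 0 < C.lam ^ 8 := pow_pos C.lam_pos 8
  have ha : 0 < C.a := lt_of_lt_of_le one_pos C.a_ge
  have hb : 0 < C.b := lt_of_lt_of_le one_pos C.b_ge
  have hd : 0 < C.d := lt_of_lt_of_le one_pos C.d_ge
  have hz := C.z_pos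
  have hy := C.y₀_pos
  have h := sum_wtA_le (fun _ (x : Cell) => lastB x)
    (h := fun q x => (C.lam ^ 8) ^ cellOff x.2 * C.a ^ alp q (x.2 0) x.1
      * C.b ^ (alp q (x.2 0) x.1 - 7) * C.d ^ (alp q (x.2 0) x.1 - 8) * C.z ^ x.1.toNat
      * C.y₀ ^ bones x.2)
    (by intro q b; positivity) C.v₀_ge C.R₀_pos.le
    (by intro q; rw [cell_step]; exact C.step₀ q) K false
  rw [C.v₀_f, mul_one] at h
  refine le_trans (le_of_eq ?_) h
  apply sum_congr rfl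
  intro l _
  rw [wtA_mul (fun _ (x : Cell) => lastB x) (fun q x => (C.lam ^ 8) ^ cellOff x.2
      * C.a ^ alp q (x.2 0) x.1 * C.b ^ (alp q (x.2 0) x.1 - 7)
      * C.d ^ (alp q (x.2 0) x.1 - 8) * C.z ^ x.1.toNat)
      (fun _ x => C.y₀ ^ bones x.2),
    wtA_mul (fun _ (x : Cell) => lastB x) (fun q x => (C.lam ^ 8) ^ cellOff x.2
      * C.a ^ alp q (x.2 0) x.1 * C.b ^ (alp q (x.2 0) x.1 - 7)
      * C.d ^ (alp q (x.2 0) x.1 - 8)) (fun _ x => C.z ^ x.1.toNat),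
    wtA_mul (fun _ (x : Cell) => lastB x) (fun q x => (C.lam ^ 8) ^ cellOff x.2
      * C.a ^ alp q (x.2 0) x.1 * C.b ^ (alp q (x.2 0) x.1 - 7))
      (fun q x => C.d ^ (alp q (x.2 0) x.1 - 8)),
    wtA_mul (fun _ (x : Cell) => lastB x) (fun q x => (C.lam ^ 8) ^ cellOff x.2
      * C.a ^ alp q (x.2 0) x.1) (fun q x => C.b ^ (alp q (x.2 0) x.1 - 7)),
    wtA_mul (fun _ (x : Cell) => lastB x) (fun _ x => (C.lam ^ 8) ^ cellOff x.2)
      (fun q x => C.a ^ alp q (x.2 0) x.1),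
    wtA_pow _ (C.lam ^ 8) (fun (_ : Bool) (x : Cell) => cellOff x.2),
    wtA_pow _ C.a (fun (q : Bool) (x : Cell) => alp q (x.2 0) x.1),
    wtA_pow _ C.b (fun (q : Bool) (x : Cell) => alp q (x.2 0) x.1 - 7),
    wtA_pow _ C.d (fun (q : Bool) (x : Cell) => alp q (x.2 0) x.1 - 8),
    wtA_pow _ C.z (fun (_ : Bool) (x : Cell) => x.1.toNat),
    wtA_pow _ C.y₀ (fun (_ : Bool) (x : Cell) => bones x.2), csA_const _ (fun x : Cell => cellOff x.2),
    csA_const _ (fun x : Cell => x.1.toNat), csA_const _ (fun x : Cell => bones x.2)]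
  rfl

theorem sum₁ (n : ℕ) :
    ∑ f : Fin n → Bool, (C.lam ^ 8) ^ linRise n f * C.y₁ ^ bones f ≤ C.R₁ ^ n := by
  have hlam : 0 < C.lam ^ 8 := pow_pos C.lam_pos 8
  have hy := C.y₁_pos
  have h := sum_wtA_le (fun _ (x : Bool) => x)
    (h := fun q x => (C.lam ^ 8) ^ rise q x * C.y₁ ^ x.toNat)
    (by intro q b; positivity) C.v₁_ge C.R₁_pos.le
    (by
      intro q
      refine le_trans (le_of_eq ?_) (C.step₁ q)
      unfold stepA cellT
      rw [Fintype.sum_bool]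
      cases q <;> simp [rise] <;> ring) n false
  rw [C.v₁_f, mul_one] at h
  refine le_trans (le_of_eq ?_) h
  apply sum_congr rfl
  intro l _
  rw [wtA_mul (fun _ (x : Bool) => x) (fun q x => (C.lam ^ 8) ^ rise q x)
      (fun _ x => C.y₁ ^ x.toNat),
    wtA_pow _ (C.lam ^ 8) (fun q x => rise q x),
    wtA_pow _ C.y₁ (fun (_ : Bool) (x : Bool) => x.toNat),
    csA_const _ (fun x : Bool => x.toNat)]
  rfl

/-- Every bad configuration has weight at least one. -/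
theorem one_le_weight {s K : ℕ} {l : Fin K → Cell} {f : Fin (K * 3) → Bool} (h : bad1 s K l f) :
    1 ≤ C.lam ^ s * ((C.lam ^ 8) ^ sumOff K l * C.a ^ sumA K l * C.b ^ sumB K l * C.d ^ sumD K l)
      * (C.lam ^ 8) ^ linRise (K * 3) f * C.B ^ (K - wOnes K l) := by
  obtain ⟨h1, h2, h4, h3⟩ := h
  have hlam := C.lam_pos
  have ha : 0 < C.a := lt_of_lt_of_le one_pos C.a_ge
  have hb : 0 < C.b := lt_of_lt_of_le one_pos C.b_ge
  have hd : 0 < C.d := lt_of_lt_of_le one_pos C.d_ge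
  have hc : 0 < C.c := lt_of_lt_of_le one_pos C.c_ge
  set M := s + 8 * (sumOff K l + linRise (K * 3) f) with hM
  have e1 : C.a ^ M ≤ C.a ^ sumA K l := pow_le_pow_right₀ C.a_ge h1
  have e2 : C.b ^ M ≤ C.b ^ (sumB K l + 7 * (K - wOnes K l)) := pow_le_pow_right₀ C.b_ge h2
  have e4 : C.d ^ M ≤ C.d ^ (sumD K l + 8 * (K - wOnes K l)) := pow_le_pow_right₀ C.d_ge h4
  have e3 : C.c ^ M ≤ C.c ^ (15 * (K - wOnes K l)) := pow_le_pow_right₀ C.c_ge h3
  have e5 : (C.b ^ 7 * C.d ^ 8 * C.c ^ 15) ^ (K - wOnes K l) ≤ C.B ^ (K - wOnes K l) :=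
    pow_le_pow_left₀ (by positivity) C.hB _
  calc (1 : ℝ) ≤ (C.a * C.b * C.d * C.c * C.lam) ^ M := one_le_pow₀ C.habc
    _ = C.a ^ M * C.b ^ M * C.d ^ M * C.c ^ M * C.lam ^ M := by
        rw [mul_pow, mul_pow, mul_pow, mul_pow]
    _ ≤ C.a ^ sumA K l * C.b ^ (sumB K l + 7 * (K - wOnes K l))
        * C.d ^ (sumD K l + 8 * (K - wOnes K l)) * C.c ^ (15 * (K - wOnes K l))
        * C.lam ^ M := by gcongr
    _ = C.lam ^ s * ((C.lam ^ 8) ^ sumOff K l * C.a ^ sumA K l * C.b ^ sumB K l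
          * C.d ^ sumD K l) * (C.lam ^ 8) ^ linRise (K * 3) f
          * (C.b ^ 7 * C.d ^ 8 * C.c ^ 15) ^ (K - wOnes K l) := by
        rw [hM, pow_add, pow_add, pow_add, mul_pow, mul_pow, ← pow_mul, ← pow_mul, ← pow_mul,
          ← pow_mul, ← pow_mul, mul_add, pow_add]
        ring
    _ ≤ _ := by gcongr

/-- The number of bad configurations with prescribed numbers of ones. -/
theorem card_le (s K w u : ℕ) (T : Finset ((Fin K → Cell) × (Fin (K * 3) → Bool)))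
    (hT : ∀ p ∈ T, wOnes K p.1 = w ∧ bOnes K p.1 = u ∧ bones p.2 = u ∧ bad1 s K p.1 p.2) :
    (T.card : ℝ) ≤ C.lam ^ s
      * (C.R₀ ^ K * C.R₁ ^ (K * 3) * C.B ^ (K - w) / (C.z ^ w * (C.y₀ * C.y₁) ^ u)) := by
  have hlam := C.lam_pos
  have ha : 0 < C.a := lt_of_lt_of_le one_pos C.a_ge
  have hb : 0 < C.b := lt_of_lt_of_le one_pos C.b_ge
  have hd : 0 < C.d := lt_of_lt_of_le one_pos C.d_ge
  have hc : 0 < C.c := lt_of_lt_of_le one_pos C.c_ge
  have hB : 0 < C.B := lt_of_lt_of_le (by positivity) C.hB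
  have hz := C.z_pos
  have hy₀ := C.y₀_pos
  have hy₁ := C.y₁_pos
  set f₀ : (Fin K → Cell) → ℝ := fun l =>
    (C.lam ^ 8) ^ sumOff K l * C.a ^ sumA K l * C.b ^ sumB K l * C.d ^ sumD K l
      * C.z ^ wOnes K l * C.y₀ ^ bOnes K l with hf₀
  set f₁ : (Fin (K * 3) → Bool) → ℝ :=
    fun f => (C.lam ^ 8) ^ linRise (K * 3) f * C.y₁ ^ bones f with hf₁
  set Q : ℝ := C.lam ^ s * C.B ^ (K - w) / (C.z ^ w * (C.y₀ * C.y₁) ^ u) with hQ
  have hQ0 : 0 ≤ Q := by positivity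
  have h1 : ∀ p ∈ T, (1 : ℝ) ≤ Q * (f₀ p.1 * f₁ p.2) := by
    intro p hp
    obtain ⟨hw, hu, hf, hb⟩ := hT p hp
    refine (C.one_le_weight hb).trans (le_of_eq ?_)
    simp only [hf₀, hf₁, hQ, hw, hu, hf]
    rw [mul_pow C.y₀]
    field_simp
  have h2 : (T.card : ℝ) ≤ ∑ p ∈ T, Q * (f₀ p.1 * f₁ p.2) := by
    calc (T.card : ℝ) = ∑ p ∈ T, (1 : ℝ) := by simp
      _ ≤ _ := sum_le_sum h1
  have h3 : ∑ p ∈ T, Q * (f₀ p.1 * f₁ p.2)
      ≤ ∑ p : (Fin K → Cell) × (Fin (K * 3) → Bool), Q * (f₀ p.1 * f₁ p.2) := by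
    apply sum_le_univ_sum_of_nonneg
    intro p
    positivity
  have h4 : ∑ p : (Fin K → Cell) × (Fin (K * 3) → Bool), Q * (f₀ p.1 * f₁ p.2)
      = Q * ((∑ l, f₀ l) * (∑ f, f₁ f)) := by
    rw [← mul_sum, Fintype.sum_prod_type, sum_mul_sum]
  have h5 : (∑ l, f₀ l) * (∑ f, f₁ f) ≤ C.R₀ ^ K * C.R₁ ^ (K * 3) := by
    apply mul_le_mul (C.sum₀ K) (C.sum₁ (K * 3))
    · apply sum_nonneg
      intro f _
      positivity
    · have := C.R₀_pos
      (clear * - this; positivity)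
  calc (T.card : ℝ) ≤ Q * ((∑ l, f₀ l) * (∑ f, f₁ f)) := by
        rw [← h4]; exact h2.trans h3
    _ ≤ Q * (C.R₀ ^ K * C.R₁ ^ (K * 3)) := by
        (clear * - h5 hQ0; gcongr)
    _ = _ := by
        rw [hQ]
        ring

end Cert1

end Vale.Agent.P333.R2.H205
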