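import Mathlib
import Vale.Agent.P333.R2.H205.Cell

/-!
Union bound over pairs of random permutations, and densities.
-/

namespace Vale.Agent.P333.R2.H205

open Vale.Agent.P333 Finset

/-- The blocks of the cells, in the order of the 0-chain. -/
def flat {K : ℕ} (l : Fin K → Cell) : Fin (K * 3) → Bool := fun i =>
  (l (finProdFinEquiv.symm i).1).2 (finProdFinEquiv.symm i).2

theorem bones_flat {K : ℕ} (l : Fin K → Cell) : bones (flat l) = bOnes K l := by
  unfold bones bOnes flat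
  rw [Equiv.sum_comp finProdFinEquiv.symm (fun p : Fin K × Fin 3 => ((l p.1).2 p.2).toNat),
    Fintype.sum_prod_type]
  rfl

/-- The event: some labelling is bad. -/
def ev (K : ℕ) (P : (Fin K → Cell) → (Fin (K * 3) → Bool) → Prop) (V : Fin K → Bool)
    (p : Equiv.Perm (Fin K) × Equiv.Perm (Fin (K * 3))) : Prop :=
  ∃ l : Fin K → Cell, (fun i => (l i).1) = (fun i => V (p.1 i)) ∧
    P l (fun i => flat l (p.2 i))

open Classical in
theorem card_ev_le (K : ℕ) (P : (Fin K → Cell) → (Fin (K * 3) → Bool) → Prop)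
    (V : Fin K → Bool) (th : ℝ)
    (hth : ∀ (u : ℕ) (T : Finset ((Fin K → Cell) × (Fin (K * 3) → Bool))), u ≤ K * 3 →
      (∀ p ∈ T, wOnes K p.1 = bones V ∧ bOnes K p.1 = u ∧ bones p.2 = u ∧ P p.1 p.2) →
      (T.card : ℝ) * (1 / (K.choose (bones V) : ℝ)) * (1 / ((K * 3).choose u : ℝ)) ≤ th) :
    (((univ : Finset (Equiv.Perm (Fin K) × Equiv.Perm (Fin (K * 3)))).filter
      (fun p => ev K P V p)).card : ℝ)
      ≤ (K.factorial : ℝ) * ((K * 3).factorial : ℝ) * (((K * 3 : ℕ) + 1) * th) := by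
  set w := bones V with hw
  let Bad : Finset ((Fin K → Cell) × (Fin (K * 3) → Bool)) :=
    univ.filter (fun p => wOnes K p.1 = w ∧ bOnes K p.1 = bones p.2 ∧ P p.1 p.2)
  have hsub : (univ : Finset (Equiv.Perm (Fin K) × Equiv.Perm (Fin (K * 3)))).filter
      (fun p => ev K P V p) ⊆ Bad.biUnion (fun q =>
        ((univ : Finset (Equiv.Perm (Fin K))).filter
          (fun σ => (fun i => V (σ i)) = fun i => (q.1 i).1)) ×ˢ
        ((univ : Finset (Equiv.Perm (Fin (K * 3)))).filter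
          (fun τ => (fun i => flat q.1 (τ i)) = q.2))) := by
    intro p hp
    rw [mem_filter] at hp
    obtain ⟨l, hl, hb⟩ := hp.2
    rw [mem_biUnion]
    refine ⟨(l, fun i => flat l (p.2 i)), ?_, ?_⟩
    · simp only [Bad, mem_filter, mem_univ, true_and]
      refine ⟨?_, ?_, hb⟩
      · have h1 : wOnes K l = bones (fun i => (l i).1) := rfl
        rw [h1, hl, bones_perm]
      · rw [bones_perm, bones_flat]
    · simp only [mem_product, mem_filter, mem_univ, true_and]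
      exact ⟨hl.symm, trivial⟩
  have h1 : ((univ : Finset (Equiv.Perm (Fin K) × Equiv.Perm (Fin (K * 3)))).filter
      (fun p => ev K P V p)).card
      ≤ ∑ q ∈ Bad, (w.factorial * (K - w).factorial) *
        ((bones q.2).factorial * ((K * 3) - bones q.2).factorial) := by
    refine (card_le_card hsub).trans (card_biUnion_le.trans ?_)
    apply sum_le_sum
    intro q hq
    rw [card_product]
    simp only [Bad, mem_filter, mem_univ, true_and] at hq
    have h2 := card_comp_eq_le V (fun i => (q.1 i).1)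
    have h3 : bones (fun i => (q.1 i).1) = w := hq.1
    rw [h3] at h2
    exact Nat.mul_le_mul h2 (card_comp_eq_le (flat q.1) q.2)
  have h2 : (((univ : Finset (Equiv.Perm (Fin K) × Equiv.Perm (Fin (K * 3)))).filter
      (fun p => ev K P V p)).card : ℝ)
      ≤ ∑ q ∈ Bad, (K.factorial : ℝ) * ((K * 3).factorial : ℝ) *
        (1 / (K.choose w : ℝ) * (1 / ((K * 3).choose (bones q.2) : ℝ))) := by
    have h3 : (((univ : Finset (Equiv.Perm (Fin K) × Equiv.Perm (Fin (K * 3)))).filter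
      (fun p => ev K P V p)).card : ℝ)
      ≤ ((∑ q ∈ Bad, (w.factorial * (K - w).factorial) *
        ((bones q.2).factorial * ((K * 3) - bones q.2).factorial) : ℕ) : ℝ) := by exact_mod_cast h1
    refine h3.trans (le_of_eq ?_)
    rw [Nat.cast_sum]
    apply sum_congr rfl
    intro q _
    have e1 := Nat.choose_mul_factorial_mul_factorial (bones_le V)
    have e2 := Nat.choose_mul_factorial_mul_factorial (bones_le q.2)
    rw [← hw] at e1
    have p1 : (0 : ℝ) < K.choose w := by exact_mod_cast Nat.choose_pos (bones_le V)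
    have p2 : (0 : ℝ) < (K * 3).choose (bones q.2) := by exact_mod_cast Nat.choose_pos (bones_le q.2)
    have e1' : (K.choose w : ℝ) * w.factorial * (K - w).factorial = K.factorial := by
      exact_mod_cast e1
    have e2' : ((K * 3).choose (bones q.2) : ℝ) * (bones q.2).factorial * ((K * 3) - bones q.2).factorial
        = (K * 3).factorial := by exact_mod_cast e2
    rw [← e1', ← e2']
    push_cast
    (clear * - p1 p2; field_simp)
  refine h2.trans ?_
  have h3 : ∑ q ∈ Bad, (K.factorial : ℝ) * ((K * 3).factorial : ℝ) *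
        (1 / (K.choose w : ℝ) * (1 / ((K * 3).choose (bones q.2) : ℝ)))
      = (K.factorial : ℝ) * ((K * 3).factorial : ℝ) *
        ∑ q ∈ Bad, (1 / (K.choose w : ℝ) * (1 / ((K * 3).choose (bones q.2) : ℝ))) := by
    rw [mul_sum]
  rw [h3]
  apply mul_le_mul_of_nonneg_left _ (by positivity)
  have h4 : ∑ q ∈ Bad, (1 / (K.choose w : ℝ) * (1 / ((K * 3).choose (bones q.2) : ℝ)))
      = ∑ u ∈ range ((K * 3) + 1), ∑ q ∈ Bad with bones q.2 = u,
        (1 / (K.choose w : ℝ) * (1 / ((K * 3).choose (bones q.2) : ℝ))) := by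
    rw [sum_fiberwise_of_maps_to]
    intro q _
    rw [mem_range]
    have := bones_le q.2
    omega
  rw [h4]
  calc ∑ u ∈ range ((K * 3) + 1), ∑ q ∈ Bad with bones q.2 = u,
        (1 / (K.choose w : ℝ) * (1 / ((K * 3).choose (bones q.2) : ℝ)))
      ≤ ∑ _u ∈ range ((K * 3) + 1), th := by
        apply sum_le_sum
        intro u hu
        rw [mem_range] at hu
        have e1 : ∑ q ∈ Bad with bones q.2 = u,
            (1 / (K.choose w : ℝ) * (1 / ((K * 3).choose (bones q.2) : ℝ)))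
            = ((Bad.filter (fun q => bones q.2 = u)).card : ℝ) * (1 / (K.choose w : ℝ))
              * (1 / ((K * 3).choose u : ℝ)) := by
          rw [sum_congr rfl (g := fun _ => (1 / (K.choose w : ℝ) * (1 / ((K * 3).choose u : ℝ)))) (by
            intro q hq
            rw [(mem_filter.mp hq).2])]
          rw [sum_const, nsmul_eq_mul, mul_assoc]
        rw [e1]
        apply hth u _ (by omega)
        intro q hq
        rw [mem_filter] at hq
        have h5 := hq.1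
        simp only [Bad, mem_filter, mem_univ, true_and] at h5
        refine ⟨h5.1, ?_, hq.2, h5.2.2⟩
        rw [h5.2.1, hq.2]
    _ = (((K * 3) : ℕ) + 1) * th := by
        rw [sum_const, card_range, nsmul_eq_mul]
        push_cast
        ring

/-- The two-variable condition. -/
theorem works3 {K w u : ℕ} (hK : 0 < K) (hw : w ≤ K) (hu : u ≤ K * 3) {R₀ R₁ Bc z y : ℝ}
    (hR₀ : 0 < R₀) (hR₁ : 0 < R₁) (hB : 0 < Bc) (hz : 0 < z) (hy : 0 < y)
    (h : Real.log R₀ + 3 * Real.log R₁ + Real.log Bc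
      ≤ (Real.binEntropy ((w : ℝ) / K) + (w : ℝ) / K * Real.log (z * Bc))
        + 3 * (Real.binEntropy ((u : ℝ) / (K * 3 : ℕ)) + (u : ℝ) / (K * 3 : ℕ) * Real.log y)) :
    R₀ ^ K * R₁ ^ (K * 3) * Bc ^ (K - w) * (((w : ℝ) ^ w * ((K - w : ℕ) : ℝ) ^ (K - w))
      * ((u : ℝ) ^ u * ((K * 3 - u : ℕ) : ℝ) ^ (K * 3 - u)))
      ≤ z ^ w * y ^ u * ((K : ℝ) ^ K * ((K * 3 : ℕ) : ℝ) ^ (K * 3)) := by
  have hK0 : (0 : ℝ) < K := by exact_mod_cast hK
  have e1 := mul_binEntropy_div' K w hK hw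
  have e2 := mul_binEntropy_div' (K * 3) u (by omega) hu
  have p1 := selfpow_pos w
  have p2 := selfpow_pos (K - w)
  have p3 := selfpow_pos u
  have p4 := selfpow_pos (K * 3 - u)
  have p5 := selfpow_pos K
  have p6 := selfpow_pos (K * 3)
  have hN : ((K * 3 : ℕ) : ℝ) = K * 3 := by push_cast; ring
  have hKw : ((K - w : ℕ) : ℝ) = K - w := by rw [Nat.cast_sub hw]
  rw [← Real.log_le_log_iff (by (clear * - hR₀ hR₁ hB p1 p2 p3 p4; positivity)) (by positivity),
    Real.log_mul (by positivity) (by (clear * - p1 p2 p3 p4; positivity)), Real.log_mul (by positivity) (by positivity),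
    Real.log_mul (by positivity) (by positivity), Real.log_mul (by (clear * - p1 p2; positivity)) (by (clear * - p3 p4; positivity)),
    Real.log_mul p1.ne' p2.ne', Real.log_mul p3.ne' p4.ne', Real.log_mul (by positivity)
    (by positivity), Real.log_mul (by positivity) (by positivity), Real.log_mul p5.ne' p6.ne',
    Real.log_pow, Real.log_pow, Real.log_pow, Real.log_pow, Real.log_pow, Real.log_pow,
    Real.log_pow, Real.log_pow, Real.log_pow, Real.log_pow, Real.log_pow]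
  have h2 : (K : ℝ) * (Real.log R₀ + 3 * Real.log R₁ + Real.log Bc)
      ≤ K * ((Real.binEntropy ((w : ℝ) / K) + (w : ℝ) / K * Real.log (z * Bc))
        + 3 * (Real.binEntropy ((u : ℝ) / (K * 3 : ℕ)) + (u : ℝ) / (K * 3 : ℕ) * Real.log y)) :=
    mul_le_mul_of_nonneg_left h hK0.le
  have h3 : (K : ℝ) * ((Real.binEntropy ((w : ℝ) / K) + (w : ℝ) / K * Real.log (z * Bc))
        + 3 * (Real.binEntropy ((u : ℝ) / (K * 3 : ℕ)) + (u : ℝ) / (K * 3 : ℕ) * Real.log y))
      = (K : ℝ) * Real.binEntropy ((w : ℝ) / K) + w * (Real.log z + Real.log Bc)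
        + (((K * 3 : ℕ) : ℝ) * Real.binEntropy ((u : ℝ) / (K * 3 : ℕ)) + u * Real.log y) := by
    rw [Real.log_mul hz.ne' hB.ne', hN]
    (clear * - hK; field_simp)
  rw [h3, e1, e2] at h2
  rw [hKw] at *
  rw [hN] at *
  linarith only [h2]

/-- The weight bound for all densities in a rectangle. -/
def Good (t0 t1 m0 m1 : ℝ) : Prop :=
  ∀ (s K w u : ℕ), 0 < K → w ≤ K → u ≤ K * 3 →
    m0 ≤ (w : ℝ) / K → (w : ℝ) / K ≤ m1 →
    t0 ≤ (u : ℝ) / (K * 3 : ℕ) → (u : ℝ) / (K * 3 : ℕ) ≤ t1 →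
    ∀ (T : Finset ((Fin K → Cell) × (Fin (K * 3) → Bool))),
    (∀ p ∈ T, wOnes K p.1 = w ∧ bOnes K p.1 = u ∧ bones p.2 = u ∧ bad1 s K p.1 p.2) →
    (T.card : ℝ) * (1 / (K.choose w : ℝ)) * (1 / ((K * 3).choose u : ℝ))
      ≤ (3/4) ^ s * ((K + 1) * ((K * 3 : ℕ) + 1))

/-- Rational check of the entropy inequality at `m = a / b`. -/
theorem chkq {C Z m : ℝ} (hC : 0 < C) (hZ : 0 < Z) (a b : ℕ) (hb : 0 < b) (hab : a ≤ b)
    (hm : m = (a : ℝ) / b)
    (h : C ^ b * ((a : ℝ) ^ a * ((b - a : ℕ) : ℝ) ^ (b - a)) ≤ Z ^ a * (b : ℝ) ^ b) :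
    Real.log C ≤ Real.binEntropy m + m * Real.log Z := by
  rw [hm]
  exact chk hC hZ hb hab h

namespace Cert1

variable (C : Cert1)

theorem B_pos : 0 < C.B := by
  have hb : 0 < C.b := lt_of_lt_of_le one_pos C.b_ge
  have hd : 0 < C.d := lt_of_lt_of_le one_pos C.d_ge
  have hc : 0 < C.c := lt_of_lt_of_le one_pos C.c_ge
  exact lt_of_lt_of_le (by positivity) C.hB

theorem weight_le (s K w u : ℕ) (hw : w ≤ K) (hu : u ≤ K * 3)
    (h : C.R₀ ^ K * C.R₁ ^ (K * 3) * C.B ^ (K - w)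
      * (((w : ℝ) ^ w * ((K - w : ℕ) : ℝ) ^ (K - w))
      * ((u : ℝ) ^ u * ((K * 3 - u : ℕ) : ℝ) ^ (K * 3 - u)))
      ≤ C.z ^ w * (C.y₀ * C.y₁) ^ u * ((K : ℝ) ^ K * ((K * 3 : ℕ) : ℝ) ^ (K * 3)))
    (T : Finset ((Fin K → Cell) × (Fin (K * 3) → Bool)))
    (hT : ∀ p ∈ T, wOnes K p.1 = w ∧ bOnes K p.1 = u ∧ bones p.2 = u ∧ bad1 s K p.1 p.2) :
    (T.card : ℝ) * (1 / (K.choose w : ℝ)) * (1 / ((K * 3).choose u : ℝ))
      ≤ C.lam ^ s * ((K + 1) * ((K * 3 : ℕ) + 1)) := by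
  have hlam := C.lam_pos
  have hB := C.B_pos
  have hz := C.z_pos
  have hy₀ := C.y₀_pos
  have hy₁ := C.y₁_pos
  have hR₀ := C.R₀_pos
  have hR₁ := C.R₁_pos
  have h1 := C.card_le s K w u T hT
  have c1 := inv_choose_le K w hw
  have c2 := inv_choose_le (K * 3) u hu
  have p1 := mul_pos (selfpow_pos w) (selfpow_pos (K - w))
  have p2 := mul_pos (selfpow_pos u) (selfpow_pos (K * 3 - u))
  have p3 := selfpow_pos K
  have p4 := selfpow_pos (K * 3)
  set E1 : ℝ := (w : ℝ) ^ w * ((K - w : ℕ) : ℝ) ^ (K - w) with hE1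
  set E2 : ℝ := (u : ℝ) ^ u * ((K * 3 - u : ℕ) : ℝ) ^ (K * 3 - u) with hE2
  set X : ℝ := C.R₀ ^ K * C.R₁ ^ (K * 3) * C.B ^ (K - w) with hX
  set Y : ℝ := C.z ^ w * (C.y₀ * C.y₁) ^ u with hY
  have hX0 : 0 < X := by positivity
  have hY0 : 0 < Y := by positivity
  have h2 : X / Y * (E1 / (K : ℝ) ^ K) * (E2 / ((K * 3 : ℕ) : ℝ) ^ (K * 3)) ≤ 1 := by
    rw [div_mul_div_comm, div_mul_div_comm, div_le_one (by (clear * - hz hy₀ hy₁ p3 p4; positivity))]
    calc X * E1 * E2 = X * (E1 * E2) := by ring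
      _ ≤ Y * ((K : ℝ) ^ K * ((K * 3 : ℕ) : ℝ) ^ (K * 3)) := h
      _ = _ := by ring
  calc (T.card : ℝ) * (1 / (K.choose w : ℝ)) * (1 / ((K * 3).choose u : ℝ))
      ≤ (C.lam ^ s * (X / Y))
        * ((K + 1) * (E1 / (K : ℝ) ^ K))
        * (((K * 3 : ℕ) + 1) * (E2 / ((K * 3 : ℕ) : ℝ) ^ (K * 3))) := by
        (clear * - h1 c1 hlam hR₀ hR₁ hB hz hy₀ hy₁ c2 p1 p3; gcongr)
    _ = C.lam ^ s * ((K + 1) * ((K * 3 : ℕ) + 1))
        * (X / Y * (E1 / (K : ℝ) ^ K) * (E2 / ((K * 3 : ℕ) : ℝ) ^ (K * 3))) := by ring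
    _ ≤ C.lam ^ s * ((K + 1) * ((K * 3 : ℕ) + 1)) * 1 := by
        (clear * - h2 hlam; gcongr)
    _ = _ := by ring

theorem good_of (t0 t1 m0 m1 : ℝ) (ht0 : 0 ≤ t0) (ht1 : t1 ≤ 1) (hm0 : 0 ≤ m0) (hm1 : m1 ≤ 1)
    (C1 C2 : ℝ) (hC1 : 0 < C1) (hC2 : 0 < C2)
    (e1 : Real.log C1 ≤ Real.binEntropy m0 + m0 * Real.log (C.z * C.B))
    (e2 : Real.log C1 ≤ Real.binEntropy m1 + m1 * Real.log (C.z * C.B))
    (e3 : Real.log C2 ≤ Real.binEntropy t0 + t0 * Real.log (C.y₀ * C.y₁))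
    (e4 : Real.log C2 ≤ Real.binEntropy t1 + t1 * Real.log (C.y₀ * C.y₁))
    (e5 : C.R₀ * C.R₁ ^ 3 * C.B ≤ C1 * C2 ^ 3) :
    Good t0 t1 m0 m1 := by
  intro s K w u hK hw hu h1 h2 h3 h4 T hT
  have hB := C.B_pos
  have hz := C.z_pos
  have hy₀ := C.y₀_pos
  have hy₁ := C.y₁_pos
  have hR₀ := C.R₀_pos
  have hR₁ := C.R₁_pos
  have hlam := C.lam_pos
  refine (C.weight_le s K w u hw hu ?_ T hT).trans ?_
  · apply works3 hK hw hu hR₀ hR₁ hB hz (by positivity)
    have g1 := chk_between hm0 hm1 h1 h2 e1 e2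
    have g2 := chk_between ht0 ht1 h3 h4 e3 e4
    have g3 : Real.log C.R₀ + 3 * Real.log C.R₁ + Real.log C.B
        ≤ Real.log C1 + 3 * Real.log C2 := by
      have h5 := Real.log_le_log (by (clear * - hR₀ hR₁ hB; positivity)) e5
      rw [Real.log_mul (by positivity) hB.ne', Real.log_mul hR₀.ne' (by positivity),
        Real.log_mul hC1.ne' (by positivity), Real.log_pow, Real.log_pow] at h5
      push_cast at h5
      linarith only [h5]
    linarith only [g1, g2, g3]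
  · have hl := C.lam_le
    (clear * - hlam hl; gcongr)

end Cert1

end Vale.Agent.P333.R2.H205
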