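import Mathlib
import Vale.Agent.P333.R2.H205.Union

/-!
The plain property for small densities, three blocks per contact, factor eight sevenths.
-/

namespace Vale.Agent.P333.R2.H205

open Vale.Agent.P333 Finset

/-- Rises between the three blocks of a cell. -/
def cellIn (g : Fin 3 → Bool) : ℕ := rise (g 0) (g 1) + rise (g 1) (g 2)

/-- Rises between blocks inside cells. -/
def sumIn (K : ℕ) (l : Fin K → Cell) : ℕ := ∑ p, cellIn (l p).2

/-- Cells whose last block is on. -/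
def sumLast (K : ℕ) (l : Fin K → Cell) : ℕ := ∑ p, (lastB (l p)).toNat

/-- Violation of the plain property (all contacts count). -/
def bad2 (s K : ℕ) (l : Fin K → Cell) (f : Fin (K * 3) → Bool) : Prop :=
  (∀ p, (l p).1 = true) ∧ s + 8 * (sumIn K l + linRise (K * 3) f) ≤ 7 * sumLast K l

/-- Certificate for the plain property. -/
structure Cert2 where
  lam : ℝ
  sig : ℝ
  y₀ : ℝ
  y₁ : ℝ
  R₀ : ℝ
  R₁ : ℝ
  v₁ : Bool → ℝ
  lam_pos : 0 < lam
  lam_le : lam ≤ 1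
  sig_ge : 1 ≤ sig
  hs : 1 ≤ sig * lam
  y₀_pos : 0 < y₀
  y₁_pos : 0 < y₁
  R₀_pos : 0 < R₀
  R₁_pos : 0 < R₁
  v₁_ge : ∀ q, 1 ≤ v₁ q
  v₁_f : v₁ false = 1
  step₀ : cellT (lam ^ 8) y₀ (cellT (lam ^ 8) y₀ (fun q => if q then sig ^ 7 else 1)) false
    + y₀ * cellT (lam ^ 8) y₀ (cellT (lam ^ 8) y₀ (fun q => if q then sig ^ 7 else 1)) true ≤ R₀
  step₁ : ∀ q, cellT (lam ^ 8) y₁ v₁ q ≤ R₁ * v₁ q

namespace Cert2

variable (C : Cert2)

theorem cell_sum (L S y : ℝ) :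
    stepA (fun (_ : Bool) (x : Cell) => lastB x) (fun _ x => 0 ^ (!x.1).toNat * L ^ cellIn x.2
      * S ^ (lastB x).toNat * y ^ bones x.2) (fun _ => 1) false
    = cellT L y (cellT L y (fun q => if q then S else 1)) false
    + y * cellT L y (cellT L y (fun q => if q then S else 1)) true := by
  unfold stepA
  rw [Fintype.sum_prod_type]
  simp only [sum_fun3, Fintype.sum_bool]
  simp [cellIn, rise, lastB, bones, cellT, Fin.sum_univ_succ]
  ring

theorem sum₀ (K : ℕ) :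
    ∑ l : Fin K → Cell, (0 : ℝ) ^ (∑ p, (!(l p).1).toNat) * (C.lam ^ 8) ^ sumIn K l
      * (C.sig ^ 7) ^ sumLast K l * C.y₀ ^ bOnes K l ≤ C.R₀ ^ K := by
  have hlam : 0 < C.lam ^ 8 := pow_pos C.lam_pos 8
  have hsig : 0 < C.sig ^ 7 := pow_pos (lt_of_lt_of_le one_pos C.sig_ge) 7
  have hy := C.y₀_pos
  have h := sum_wtA_le (fun (_ : Bool) (x : Cell) => lastB x)
    (h := fun _ x => 0 ^ (!x.1).toNat * (C.lam ^ 8) ^ cellIn x.2
      * (C.sig ^ 7) ^ (lastB x).toNat * C.y₀ ^ bones x.2)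
    (by intro q b; positivity) (v := fun _ => 1) (fun _ => le_rfl) C.R₀_pos.le
    (by
      intro q
      rw [mul_one]
      refine le_trans (le_of_eq ?_) C.step₀
      rw [← cell_sum]
      rfl) K false
  rw [mul_one] at h
  refine le_trans (le_of_eq ?_) h
  apply sum_congr rfl
  intro l _
  rw [wtA_mul (fun (_ : Bool) (x : Cell) => lastB x) (fun _ x => 0 ^ (!x.1).toNat
      * (C.lam ^ 8) ^ cellIn x.2 * (C.sig ^ 7) ^ (lastB x).toNat) (fun _ x => C.y₀ ^ bones x.2),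
    wtA_mul (fun (_ : Bool) (x : Cell) => lastB x) (fun _ x => 0 ^ (!x.1).toNat
      * (C.lam ^ 8) ^ cellIn x.2) (fun _ x => (C.sig ^ 7) ^ (lastB x).toNat),
    wtA_mul (fun (_ : Bool) (x : Cell) => lastB x) (fun _ x => (0 : ℝ) ^ (!x.1).toNat)
      (fun _ x => (C.lam ^ 8) ^ cellIn x.2),
    wtA_pow _ 0 (fun (_ : Bool) (x : Cell) => (!x.1).toNat),
    wtA_pow _ (C.lam ^ 8) (fun (_ : Bool) (x : Cell) => cellIn x.2),
    wtA_pow _ (C.sig ^ 7) (fun (_ : Bool) (x : Cell) => (lastB x).toNat),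
    wtA_pow _ C.y₀ (fun (_ : Bool) (x : Cell) => bones x.2),
    csA_const _ (fun x : Cell => (!x.1).toNat), csA_const _ (fun x : Cell => cellIn x.2),
    csA_const _ (fun x : Cell => (lastB x).toNat), csA_const _ (fun x : Cell => bones x.2)]
  rfl

theorem sum₁ (n : ℕ) :
    ∑ f : Fin n → Bool, (C.lam ^ 8) ^ linRise n f * C.y₁ ^ bones f ≤ C.R₁ ^ n := by
  have hlam : 0 < C.lam ^ 8 := pow_pos C.lam_pos 8
  have hy := C.y₁_pos
  have h := sum_wtA_le (fun _ (x : Bool) => x)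
    (h := fun q x => (C.lam ^ 8) ^ rise q x * C.y₁ ^ x.toNat)
    (by intro q b; positivity) C.v₁_ge C.R₁_pos.le
    (by
      intro q
      refine le_trans (le_of_eq ?_) (C.step₁ q)
      unfold stepA cellT
      rw [Fintype.sum_bool]
      cases q <;> simp [rise] <;> ring) n false
  rw [C.v₁_f, mul_one] at h
  refine le_trans (le_of_eq ?_) h
  apply sum_congr rfl
  intro l _
  rw [wtA_mul (fun _ (x : Bool) => x) (fun q x => (C.lam ^ 8) ^ rise q x)
      (fun _ x => C.y₁ ^ x.toNat),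
    wtA_pow _ (C.lam ^ 8) (fun q x => rise q x),
    wtA_pow _ C.y₁ (fun (_ : Bool) (x : Bool) => x.toNat),
    csA_const _ (fun x : Bool => x.toNat)]
  rfl

theorem card_le (s K u : ℕ) (T : Finset ((Fin K → Cell) × (Fin (K * 3) → Bool)))
    (hT : ∀ p ∈ T, bOnes K p.1 = u ∧ bones p.2 = u ∧ bad2 s K p.1 p.2) :
    (T.card : ℝ) ≤ C.lam ^ s * (C.R₀ ^ K * C.R₁ ^ (K * 3) / (C.y₀ * C.y₁) ^ u) := by
  have hlam := C.lam_pos
  have hsig : 0 < C.sig := lt_of_lt_of_le one_pos C.sig_ge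
  have hy₀ := C.y₀_pos
  have hy₁ := C.y₁_pos
  set f₀ : (Fin K → Cell) → ℝ := fun l => (0 : ℝ) ^ (∑ p, (!(l p).1).toNat)
      * (C.lam ^ 8) ^ sumIn K l * (C.sig ^ 7) ^ sumLast K l * C.y₀ ^ bOnes K l with hf₀
  set f₁ : (Fin (K * 3) → Bool) → ℝ :=
    fun f => (C.lam ^ 8) ^ linRise (K * 3) f * C.y₁ ^ bones f with hf₁
  set Q : ℝ := C.lam ^ s / (C.y₀ * C.y₁) ^ u with hQ
  have hQ0 : 0 ≤ Q := by positivity
  have h1 : ∀ p ∈ T, (1 : ℝ) ≤ Q * (f₀ p.1 * f₁ p.2) := by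
    intro p hp
    obtain ⟨hu, hf, ⟨hw, hb⟩⟩ := hT p hp
    have hw0 : ∑ i, (!(p.1 i).1).toNat = 0 := by
      apply sum_eq_zero
      intro i _
      rw [hw i]
      rfl
    have e1 : C.sig ^ (s + 8 * (sumIn K p.1 + linRise (K * 3) p.2))
        ≤ C.sig ^ (7 * sumLast K p.1) := pow_le_pow_right₀ C.sig_ge hb
    have e2 : (1 : ℝ) ≤ (C.sig * C.lam) ^ (s + 8 * (sumIn K p.1 + linRise (K * 3) p.2)) :=
      one_le_pow₀ C.hs
    rw [mul_pow] at e2
    have e3 : (1 : ℝ) ≤ C.sig ^ (7 * sumLast K p.1)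
        * C.lam ^ (s + 8 * (sumIn K p.1 + linRise (K * 3) p.2)) :=
      e2.trans (mul_le_mul_of_nonneg_right e1 (by positivity))
    refine e3.trans (le_of_eq ?_)
    simp only [hf₀, hf₁, hQ, hu, hf, hw0]
    rw [mul_pow C.y₀, pow_add, mul_add, pow_add, pow_mul, pow_mul, pow_mul]
    (clear * - hy₀ hy₁ hlam hsig; field_simp)
  have h2 : (T.card : ℝ) ≤ ∑ p ∈ T, Q * (f₀ p.1 * f₁ p.2) := by
    calc (T.card : ℝ) = ∑ p ∈ T, (1 : ℝ) := by simp
      _ ≤ _ := sum_le_sum h1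
  have h3 : ∑ p ∈ T, Q * (f₀ p.1 * f₁ p.2)
      ≤ ∑ p : (Fin K → Cell) × (Fin (K * 3) → Bool), Q * (f₀ p.1 * f₁ p.2) := by
    apply sum_le_univ_sum_of_nonneg
    intro p
    (clear * - hlam hy₀ hy₁ hsig; positivity)
  have h4 : ∑ p : (Fin K → Cell) × (Fin (K * 3) → Bool), Q * (f₀ p.1 * f₁ p.2)
      = Q * ((∑ l, f₀ l) * (∑ f, f₁ f)) := by
    rw [← mul_sum, Fintype.sum_prod_type, sum_mul_sum]
  have h5 : (∑ l, f₀ l) * (∑ f, f₁ f) ≤ C.R₀ ^ K * C.R₁ ^ (K * 3) := by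
    apply mul_le_mul (C.sum₀ K) (C.sum₁ (K * 3))
    · apply sum_nonneg
      intro f _
      positivity
    · have := C.R₀_pos
      positivity
  calc (T.card : ℝ) ≤ Q * ((∑ l, f₀ l) * (∑ f, f₁ f)) := by
        rw [← h4]; exact h2.trans h3
    _ ≤ Q * (C.R₀ ^ K * C.R₁ ^ (K * 3)) := by
        (clear * - h5 hlam hy₀ hy₁; gcongr)
    _ = _ := by
        rw [hQ]
        ring

theorem weight_le (s K u : ℕ) (hK : 0 < K) (hu : u ≤ K * 3)
    (h : Real.log C.R₀ + 3 * Real.log C.R₁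
      ≤ 3 * (Real.binEntropy ((u : ℝ) / (K * 3 : ℕ))
        + (u : ℝ) / (K * 3 : ℕ) * Real.log (C.y₀ * C.y₁)))
    (T : Finset ((Fin K → Cell) × (Fin (K * 3) → Bool)))
    (hT : ∀ p ∈ T, bOnes K p.1 = u ∧ bones p.2 = u ∧ bad2 s K p.1 p.2) :
    (T.card : ℝ) * (1 / ((K * 3).choose u : ℝ))
      ≤ C.lam ^ s * ((K * 3 : ℕ) + 1) := by
  have hlam := C.lam_pos
  have hy₀ := C.y₀_pos
  have hy₁ := C.y₁_pos
  have hR₀ := C.R₀_pos
  have hR₁ := C.R₁_pos
  have h1 := C.card_le s K u T hT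
  have c2 := inv_choose_le (K * 3) u hu
  have p2 := mul_pos (selfpow_pos u) (selfpow_pos (K * 3 - u))
  have p3 := selfpow_pos K
  have p4 := selfpow_pos (K * 3)
  have hw := works3 (K := K) (w := K) (u := u) (Bc := 1) (z := 1) (y := C.y₀ * C.y₁) hK le_rfl hu
    hR₀ hR₁ one_pos one_pos (by positivity) (by
      rw [mul_one, Real.log_one, div_self (by positivity), Real.binEntropy_one]
      linarith only [h])
  simp only [Nat.sub_self, pow_zero, Nat.cast_zero, mul_one, one_pow, one_mul] at hw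
  set E2 : ℝ := (u : ℝ) ^ u * ((K * 3 - u : ℕ) : ℝ) ^ (K * 3 - u) with hE2
  set X : ℝ := C.R₀ ^ K * C.R₁ ^ (K * 3) with hX
  set Y : ℝ := (C.y₀ * C.y₁) ^ u with hY
  have hX0 : 0 < X := by positivity
  have hY0 : 0 < Y := by positivity
  have h2 : X / Y * (E2 / ((K * 3 : ℕ) : ℝ) ^ (K * 3)) ≤ 1 := by
    rw [div_mul_div_comm, div_le_one (by positivity)]
    have h3 : (X * E2) * (K : ℝ) ^ K ≤ (Y * ((K * 3 : ℕ) : ℝ) ^ (K * 3)) * (K : ℝ) ^ K := by
      linarith only [hw]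
    exact le_of_mul_le_mul_right h3 p3
  calc (T.card : ℝ) * (1 / ((K * 3).choose u : ℝ))
      ≤ (C.lam ^ s * (X / Y))
        * (((K * 3 : ℕ) + 1) * (E2 / ((K * 3 : ℕ) : ℝ) ^ (K * 3))) := by
        (clear * - h1 c2 hlam hR₀ hR₁ hy₀ hy₁; gcongr)
    _ = C.lam ^ s * ((K * 3 : ℕ) + 1)
        * (X / Y * (E2 / ((K * 3 : ℕ) : ℝ) ^ (K * 3))) := by ring
    _ ≤ C.lam ^ s * ((K * 3 : ℕ) + 1) * 1 := by
        (clear * - h2 hlam hK; gcongr)
    _ = _ := by ring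

end Cert2

/-- Certificate at the density `r ^ 4`. -/
noncomputable def pcs (r : ℝ) (hr0 : 0 < r) (hr1 : r ^ 4 ≤ 1/40) : Cert2 where
  lam := r
  sig := 1 / r
  y₀ := 10 / 9 * r ^ 4
  y₁ := 9 / 10
  R₀ := 1 + (10 / 9 * r ^ 4 + (10 / 9 + 1000 / 729) * r ^ 5 + 100 / 81 * r ^ 8
    + 200 / 81 * r ^ 9 + 10 / 9 * r ^ 12)
  R₁ := 1 + 9 * r ^ 8
  v₁ := fun q => if q then 10 else 1
  lam_pos := hr0
  lam_le := by
    by_contra h
    push Not at h
    have : (1 : ℝ) < r ^ 4 := one_lt_pow₀ h (by norm_num)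
    linarith only [this, hr1]
  sig_ge := by
    have h1 : r ≤ 1 := by
      by_contra h
      push Not at h
      have : (1 : ℝ) < r ^ 4 := one_lt_pow₀ h (by norm_num)
      linarith only [this, hr1]
    rw [le_div_iff₀ hr0]
    linarith only [h1]
  hs := by
    apply le_of_eq
    field_simp
  y₀_pos := by positivity
  y₁_pos := by norm_num
  R₀_pos := by positivity
  R₁_pos := by positivity
  v₁_ge := by
    intro q
    cases q <;> norm_num
  v₁_f := by simp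
  step₀ := by
    have hne : r ≠ 0 := hr0.ne'
    apply le_of_eq
    simp only [cellT, if_true, Bool.false_eq_true, if_false]
    field_simp
    ring
  step₁ := by
    intro q
    have h8 : 0 < r ^ 8 := by positivity
    cases q
    · simp only [cellT, if_true, Bool.false_eq_true, if_false]
      nlinarith only [h8]
    · simp only [cellT, if_true, Bool.false_eq_true, if_false]
      nlinarith only [h8]

theorem pcs_log (r : ℝ) (hr0 : 0 < r) (hr1 : r ^ 4 ≤ 1/40) :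
    Real.log (pcs r hr0 hr1).R₀ + 3 * Real.log (pcs r hr0 hr1).R₁
      ≤ 3 * (Real.binEntropy (r ^ 4) + r ^ 4 * Real.log ((pcs r hr0 hr1).y₀ * (pcs r hr0 hr1).y₁)) := by
  simp only [pcs]
  have hrp : 0 < r ^ 4 := by positivity
  have hr04 : r ≤ 2/5 := by
    by_contra h
    push Not at h
    have : (2/5 : ℝ) ^ 4 < r ^ 4 := pow_lt_pow_left₀ h (by norm_num) (by norm_num)
    norm_num at this
    linarith only [this, hr1]
  have h1 : Real.log (1 + (10 / 9 * r ^ 4 + (10 / 9 + 1000 / 729) * r ^ 5 + 100 / 81 * r ^ 8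
    + 200 / 81 * r ^ 9 + 10 / 9 * r ^ 12)) ≤ 10 / 9 * r ^ 4 + (10 / 9 + 1000 / 729) * r ^ 5
      + 100 / 81 * r ^ 8 + 200 / 81 * r ^ 9 + 10 / 9 * r ^ 12 := by
    have := Real.log_le_sub_one_of_pos (show (0 : ℝ) < 1 + (10 / 9 * r ^ 4
      + (10 / 9 + 1000 / 729) * r ^ 5 + 100 / 81 * r ^ 8
      + 200 / 81 * r ^ 9 + 10 / 9 * r ^ 12) by positivity)
    linarith only [this]
  have h2 : Real.log (1 + 9 * r ^ 8) ≤ 9 * r ^ 8 := by
    have := Real.log_le_sub_one_of_pos (show (0 : ℝ) < 1 + 9 * r ^ 8 by positivity)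
    linarith only [this]
  have h3 : Real.log (1 - r ^ 4) ≤ -r ^ 4 := by
    have := Real.log_le_sub_one_of_pos (show (0 : ℝ) < 1 - r ^ 4 by linarith only [hr1])
    linarith only [this]
  have h5 : (1 - r ^ 4) * Real.log (1 - r ^ 4) ≤ (1 - r ^ 4) * (-r ^ 4) :=
    mul_le_mul_of_nonneg_left h3 (by linarith only [hr1])
  have hy : 10 / 9 * r ^ 4 * (9 / 10) = r ^ 4 := by ring
  have hb : Real.binEntropy (r ^ 4)
      = -(r ^ 4 * Real.log (r ^ 4)) - (1 - r ^ 4) * Real.log (1 - r ^ 4) := by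
    rw [Real.binEntropy, Real.log_inv, Real.log_inv]
    ring
  rw [hy, hb]
  have h8 : r ^ 8 = r ^ 4 * r ^ 4 := by ring
  have h5' : r ^ 5 = r ^ 4 * r := by ring
  have h9 : r ^ 9 = r ^ 4 * (r ^ 4 * r) := by ring
  have h12 : r ^ 12 = r ^ 4 * (r ^ 4 * r ^ 4) := by ring
  set T := r ^ 4 with hT
  have k1 : T * T ≤ T * (1/40) := mul_le_mul_of_nonneg_left hr1 hrp.le
  have k2 : T * r ≤ T * (399/1000) := by
    apply mul_le_mul_of_nonneg_left _ hrp.le
    by_contra h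
    push Not at h
    have : (399/1000 : ℝ) ^ 4 < r ^ 4 := pow_lt_pow_left₀ h (by norm_num) (by norm_num)
    norm_num at this
    linarith only [this, hr1]
  have k3 : T * (T * r) ≤ T * (1/40 * (2/5)) := by
    apply mul_le_mul_of_nonneg_left _ hrp.le
    exact mul_le_mul hr1 hr04 hr0.le (by norm_num)
  have k4 : T * (T * T) ≤ T * (1/40 * (1/40)) := by
    apply mul_le_mul_of_nonneg_left _ hrp.le
    exact mul_le_mul hr1 hr1 hrp.le (by norm_num)
  rw [h8, h5', h9, h12] at h1 ⊢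
  rw [h8] at h2
  have h6 : (1 - T) * (-T) = -T + T * T := by ring
  rw [h6] at h5
  linarith only [h1, h2, h5, k1, k2, k3, k4, hrp]

/-- The weight bound of the plain event up to density one fortieth. -/
theorem plain_weight (s K u : ℕ) (hK : 0 < K) (hu0 : 0 < u) (hu : (u : ℝ) / (K * 3 : ℕ) ≤ 1/40)
    (T : Finset ((Fin K → Cell) × (Fin (K * 3) → Bool)))
    (hT : ∀ p ∈ T, bOnes K p.1 = u ∧ bones p.2 = u ∧ bad2 s K p.1 p.2) :
    (T.card : ℝ) * (1 / ((K * 3).choose u : ℝ)) ≤ (3/4) ^ s * ((K * 3 : ℕ) + 1) := by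
  have hN : (0 : ℝ) < (K * 3 : ℕ) := by
    have : 0 < K * 3 := by omega
    exact_mod_cast this
  have huN : u ≤ K * 3 := by
    have h1 : (u : ℝ) ≤ (K * 3 : ℕ) * (1/40) := by
      rw [div_le_iff₀ hN] at hu
      linarith only [hu]
    have h2 : (u : ℝ) ≤ (K * 3 : ℕ) := by linarith only [h1]
    exact_mod_cast h2
  have ht0 : 0 < (u : ℝ) / (K * 3 : ℕ) := by
    have : (0 : ℝ) < u := by exact_mod_cast hu0
    positivity
  set t : ℝ := (u : ℝ) / (K * 3 : ℕ) with ht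
  set r : ℝ := Real.sqrt (Real.sqrt t) with hr
  have hr0 : 0 < r := Real.sqrt_pos.mpr (Real.sqrt_pos.mpr ht0)
  have hr4 : r ^ 4 = t := by
    have h1 : r ^ 2 = Real.sqrt t := Real.sq_sqrt (Real.sqrt_nonneg t)
    have h2 : Real.sqrt t ^ 2 = t := Real.sq_sqrt ht0.le
    calc r ^ 4 = (r ^ 2) ^ 2 := by ring
      _ = t := by rw [h1, h2]
  have hr1 : r ^ 4 ≤ 1/40 := by rw [hr4]; exact hu
  have hrle : r ≤ 3/4 := by
    by_contra h
    push Not at h
    have : (3/4 : ℝ) ^ 4 < r ^ 4 := pow_lt_pow_left₀ h (by norm_num) (by norm_num)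
    norm_num at this
    linarith only [this, hr1]
  have hlog := pcs_log r hr0 hr1
  rw [hr4] at hlog
  refine ((pcs r hr0 hr1).weight_le s K u hK huN hlog T hT).trans ?_
  have : (pcs r hr0 hr1).lam = r := rfl
  rw [this]
  gcongr

end Vale.Agent.P333.R2.H205
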