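import Mathlib
import Vale.Agent.P333.R2.H205.Plain

/-!
Deterministic part: a violation of the expansion property gives a bad configuration.
-/

namespace Vale.Agent.P333.R2.H205

open Vale.Agent.P333 Finset

theorem alp_le (p n w : Bool) : alp p n w ≤ 15 := by
  cases p <;> cases n <;> cases w <;> decide

theorem cyc_le_sumA {K : ℕ} (hK : 0 < K) (l : Fin K → Cell) :
    ∑ p, alp (lastB (l p)) ((l (finRotate K p)).2 0) (l (finRotate K p)).1 ≤ sumA K l + 15 := by
  obtain ⟨n, rfl⟩ : ∃ n, K = n + 1 := ⟨K - 1, by omega⟩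
  rw [sum_rotate n (fun p p' => alp (lastB (l p)) ((l p').2 0) (l p').1)]
  unfold sumA
  rw [csA_eq_sum]
  have := alp_le (lastB (l (Fin.last n))) ((l 0).2 0) (l 0).1
  omega

theorem cyc_le_sumB {K : ℕ} (hK : 0 < K) (l : Fin K → Cell) :
    ∑ p, (alp (lastB (l p)) ((l (finRotate K p)).2 0) (l (finRotate K p)).1 - 7)
      ≤ sumB K l + 15 := by
  obtain ⟨n, rfl⟩ : ∃ n, K = n + 1 := ⟨K - 1, by omega⟩
  rw [sum_rotate n (fun p p' => alp (lastB (l p)) ((l p').2 0) (l p').1 - 7)]
  unfold sumB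
  rw [csA_eq_sum]
  have := alp_le (lastB (l (Fin.last n))) ((l 0).2 0) (l 0).1
  omega

theorem cyc_le_sumD {K : ℕ} (hK : 0 < K) (l : Fin K → Cell) :
    ∑ p, (alp (lastB (l p)) ((l (finRotate K p)).2 0) (l (finRotate K p)).1 - 8)
      ≤ sumD K l + 15 := by
  obtain ⟨n, rfl⟩ : ∃ n, K = n + 1 := ⟨K - 1, by omega⟩
  rw [sum_rotate n (fun p p' => alp (lastB (l p)) ((l p').2 0) (l p').1 - 8)]
  unfold sumD
  rw [csA_eq_sum]
  have := alp_le (lastB (l (Fin.last n))) ((l 0).2 0) (l 0).1
  omega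

theorem contact_ineq (P x n w : Bool) :
    8 * n.toNat + 7 * (x && w).toNat
      ≤ 8 * rise P x + 8 * rise x n + (if x then alp P n w else 0) := by
  cases P <;> cases x <;> cases n <;> cases w <;> decide

theorem contact_plain (P x n : Bool) : 7 * x.toNat ≤ 8 * rise P x + 8 * rise x n + 7 * P.toNat := by
  cases P <;> cases x <;> cases n <;> decide

theorem sumOff_eq {K : ℕ} (l : Fin K → Cell) :
    sumOff K l = ∑ p, ((l p).2 0).toNat + sumIn K l := by
  unfold sumOff sumIn
  rw [← sum_add_distrib]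
  apply sum_congr rfl
  intro p _
  unfold cellOff cellIn
  have : rise false ((l p).2 0) = ((l p).2 0).toNat := by
    cases (l p).2 0 <;> decide
  rw [this]
  ring

/-- Rises along the 0-chain at the level of cells. -/
def cellRises {K : ℕ} (l : Fin K → Cell) (X : Fin K → Bool) : ℕ :=
  ∑ p, (rise (X p) ((l p).2 0) + cellIn (l p).2 + rise (lastB (l p)) (X (finRotate K p)))

theorem cellRises_eq {K : ℕ} (l : Fin K → Cell) (X : Fin K → Bool) :
    cellRises l X = ∑ p, rise (X p) ((l p).2 0) + sumIn K l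
      + ∑ p, rise (lastB (l p)) (X (finRotate K p)) := by
  unfold cellRises sumIn
  rw [sum_add_distrib, sum_add_distrib]

theorem det1 {K : ℕ} (hK : 0 < K) (l : Fin K → Cell) (X : Fin K → Bool)
    (f : Fin (K * 3) → Bool) (s : ℕ) (hcon : bones X + wOnes K l ≤ K)
    (hviol : 8 * (cellRises l X + ∑ i, rise (f i) (f (finRotate _ i))) + s + 23
      ≤ 7 * ∑ p, (X p && (l p).1).toNat) : bad1 s K l f := by
  set AX := ∑ p, (if X (finRotate K p) then
    alp (lastB (l p)) ((l (finRotate K p)).2 0) (l (finRotate K p)).1 else 0) with hAX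
  have e1 : ∑ p, ((l (finRotate K p)).2 0).toNat = ∑ p, ((l p).2 0).toNat :=
    Equiv.sum_comp (finRotate K) (fun p => ((l p).2 0).toNat)
  have e2 : ∑ p, (X (finRotate K p) && (l (finRotate K p)).1).toNat
      = ∑ p, (X p && (l p).1).toNat :=
    Equiv.sum_comp (finRotate K) (fun p => (X p && (l p).1).toNat)
  have e3 : ∑ p, rise (X (finRotate K p)) ((l (finRotate K p)).2 0)
      = ∑ p, rise (X p) ((l p).2 0) :=
    Equiv.sum_comp (finRotate K) (fun p => rise (X p) ((l p).2 0))
  have e4 : ∑ p, (X (finRotate K p)).toNat = bones X :=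
    Equiv.sum_comp (finRotate K) (fun p => (X p).toNat)
  have h1 : ∑ p, (8 * ((l (finRotate K p)).2 0).toNat
        + 7 * (X (finRotate K p) && (l (finRotate K p)).1).toNat)
      ≤ ∑ p, (8 * rise (lastB (l p)) (X (finRotate K p))
        + 8 * rise (X (finRotate K p)) ((l (finRotate K p)).2 0)
        + (if X (finRotate K p) then
          alp (lastB (l p)) ((l (finRotate K p)).2 0) (l (finRotate K p)).1 else 0)) := by
    apply sum_le_sum
    intro p _
    exact contact_ineq _ _ _ _
  rw [sum_add_distrib, sum_add_distrib, sum_add_distrib, ← mul_sum, ← mul_sum, ← mul_sum,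
    ← mul_sum, e1, e2, e3, ← hAX] at h1
  have h2 := cellRises_eq l X
  have h3 := sumOff_eq l
  have h4 := linRise_le f
  have hA1 : AX ≤ ∑ p, alp (lastB (l p)) ((l (finRotate K p)).2 0) (l (finRotate K p)).1 := by
    apply sum_le_sum
    intro p _
    split_ifs <;> omega
  have hA2 : AX ≤ ∑ p, (alp (lastB (l p)) ((l (finRotate K p)).2 0) (l (finRotate K p)).1 - 7)
      + 7 * bones X := by
    rw [← e4, mul_sum, ← sum_add_distrib]
    apply sum_le_sum
    intro p _
    split_ifs with h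
    · rw [h]
      have : (true : Bool).toNat = 1 := rfl
      omega
    · omega
  have hA4 : AX ≤ ∑ p, (alp (lastB (l p)) ((l (finRotate K p)).2 0) (l (finRotate K p)).1 - 8)
      + 8 * bones X := by
    rw [← e4, mul_sum, ← sum_add_distrib]
    apply sum_le_sum
    intro p _
    split_ifs with h
    · rw [h]
      have : (true : Bool).toNat = 1 := rfl
      omega
    · omega
  have hA3 : AX ≤ 15 * bones X := by
    rw [← e4, mul_sum]
    apply sum_le_sum
    intro p _
    split_ifs with h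
    · rw [h]
      have := alp_le (lastB (l p)) ((l (finRotate K p)).2 0) (l (finRotate K p)).1
      have h6 : (true : Bool).toNat = 1 := rfl
      omega
    · omega
  have h5 := cyc_le_sumA hK l
  have h6 := cyc_le_sumB hK l
  have h7 := cyc_le_sumD hK l
  refine ⟨?_, ?_, ?_, ?_⟩ <;> omega

theorem det2 {K : ℕ} (l : Fin K → Cell) (X : Fin K → Bool)
    (f : Fin (K * 3) → Bool) (s : ℕ)
    (hviol : 8 * (cellRises l X + ∑ i, rise (f i) (f (finRotate _ i))) + s + 8 ≤ 7 * bones X) :
    s + 8 * (sumIn K l + linRise (K * 3) f) ≤ 7 * sumLast K l := by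
  have e3 : ∑ p, rise (X (finRotate K p)) ((l (finRotate K p)).2 0)
      = ∑ p, rise (X p) ((l p).2 0) :=
    Equiv.sum_comp (finRotate K) (fun p => rise (X p) ((l p).2 0))
  have e4 : ∑ p, (X (finRotate K p)).toNat = bones X :=
    Equiv.sum_comp (finRotate K) (fun p => (X p).toNat)
  have h1 : ∑ p, 7 * (X (finRotate K p)).toNat
      ≤ ∑ p, (8 * rise (lastB (l p)) (X (finRotate K p))
        + 8 * rise (X (finRotate K p)) ((l (finRotate K p)).2 0)
        + 7 * (lastB (l p)).toNat) := by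
    apply sum_le_sum
    intro p _
    exact contact_plain _ _ _
  rw [sum_add_distrib, sum_add_distrib, ← mul_sum, ← mul_sum, ← mul_sum, ← mul_sum, e3, e4] at h1
  have h2 := cellRises_eq l X
  have h4 := linRise_le f
  unfold sumLast
  omega

variable {k t : ℕ}

/-- Blocks in the order of the 0-chain. -/
def mkE (σ : Equiv.Perm (Fin (k * t))) : Fin (k * t * 3) ≃ (Fin k × Fin t) × Fin 3 :=
  finProdFinEquiv.symm.trans (Equiv.prodCongr (mkE0 σ) (Equiv.refl _))

/-- Order of the blocks in the 1-chain. -/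
def mkE1 (σ : Equiv.Perm (Fin (k * t))) (τ : Equiv.Perm (Fin (k * t * 3))) :
    Fin (k * t * 3) ≃ (Fin k × Fin t) × Fin 3 := τ.trans (mkE σ)

/-- Cells of a state. -/
def lab (σ : Equiv.Perm (Fin (k * t))) (m : (Fin k × Fin t) × Fin 3 → Bool) (W : Fin k × Fin t → Bool) :
    Fin (k * t) → Cell := fun p => (W (mkE0 σ p), fun j => m (mkE0 σ p, j))

theorem rises0_eq (σ : Equiv.Perm (Fin (k * t))) (m : (Fin k × Fin t) × Fin (2 + 1) → Bool)
    (x : Fin k × Fin t → Bool) (W : Fin k × Fin t → Bool) :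
    rises0 (rot (mkE0 σ)) m x = cellRises (lab σ m W) (fun p => x (mkE0 σ p)) := by
  unfold rises0 cellRises
  rw [← Equiv.sum_comp (mkE0 σ)]
  apply sum_congr rfl
  intro p _
  rw [rotE_apply]
  have h3 : (Fin.last 2 : Fin (2 + 1)) = 2 := rfl
  simp only [lab, lastB, cellIn, Fin.sum_univ_succ, h3]
  rfl

theorem rises1_eq (σ : Equiv.Perm (Fin (k * t))) (τ : Equiv.Perm (Fin (k * t * 3)))
    (m : (Fin k × Fin t) × Fin (2 + 1) → Bool) :
    rises1 (rot (mkE1 σ τ)) m
      = ∑ i, rise (m (mkE1 σ τ i)) (m (mkE1 σ τ (finRotate _ i))) := by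
  unfold rises1
  rw [← Equiv.sum_comp (mkE1 σ τ)]
  apply sum_congr rfl
  intro i _
  rw [rotE_apply]

theorem flat_lab (σ : Equiv.Perm (Fin (k * t))) (τ : Equiv.Perm (Fin (k * t * 3)))
    (m : (Fin k × Fin t) × Fin 3 → Bool) (W : Fin k × Fin t → Bool) (i : Fin (k * t * 3)) :
    flat (lab σ m W) (τ i) = m (mkE1 σ τ i) := rfl

/-- The successor of a block in the 0-chain. -/
theorem s0_mkE (σ : Equiv.Perm (Fin (k * t))) (y : Fin (k * t * 3)) :
    s0 (β := 2) (rot (mkE0 σ)) (mkE σ y) = mkE σ (finRotate _ y) := by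
  obtain ⟨⟨p, j⟩, rfl⟩ := finProdFinEquiv.surjective y
  have hE : ∀ (q : Fin (k * t)) (i : Fin 3), mkE σ (finProdFinEquiv (q, i)) = (mkE0 σ q, i) := by
    intro q i
    simp [mkE]
  rw [hE]
  have hK : 0 < k * t := lt_of_le_of_lt (Nat.zero_le _) p.2
  obtain ⟨n, hn⟩ : ∃ n, k * t * 3 = n + 1 := ⟨k * t * 3 - 1, by omega⟩
  have hrot : ∀ (N : ℕ) (y : Fin N), ((finRotate N y : Fin N) : ℕ) = if (y : ℕ) + 1 = N then 0 else (y : ℕ) + 1 := by
    intro N y
    rcases Nat.eq_zero_or_pos N with rfl | hN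
    · exact y.elim0
    obtain ⟨m, rfl⟩ : ∃ m, N = m + 1 := ⟨N - 1, by omega⟩
    rw [coe_finRotate]
    by_cases h : y = Fin.last m
    · rw [if_pos h, if_pos (by rw [h]; simp)]
    · rw [if_neg h, if_neg]
      intro h2
      apply h
      apply Fin.ext
      simp
      omega
  unfold s0
  by_cases hj : (j : ℕ) + 1 < 2 + 1
  · rw [dif_pos hj]
    have : finRotate (k * t * 3) (finProdFinEquiv (p, j))
        = finProdFinEquiv (p, ⟨(j : ℕ) + 1, hj⟩) := by
      apply Fin.ext
      rw [hrot]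
      have h1 : (finProdFinEquiv (p, j) : ℕ) = j + 3 * p := rfl
      have h2 : (finProdFinEquiv (p, (⟨(j : ℕ) + 1, hj⟩ : Fin 3)) : ℕ) = (j + 1) + 3 * p := rfl
      rw [h1, h2]
      have hp := p.2
      rw [if_neg (by omega)]
      omega
    rw [this, hE]
  · rw [dif_neg hj]
    have hj3 : (j : ℕ) = 2 := by
      have := j.2
      omega
    rw [rotE_apply]
    have : finRotate (k * t * 3) (finProdFinEquiv (p, j))
        = finProdFinEquiv (finRotate (k * t) p, (0 : Fin 3)) := by
      apply Fin.ext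
      rw [hrot]
      have h1 : (finProdFinEquiv (p, j) : ℕ) = j + 3 * p := rfl
      have h2 : (finProdFinEquiv (finRotate (k * t) p, (0 : Fin 3)) : ℕ)
          = 0 + 3 * (finRotate (k * t) p : ℕ) := rfl
      rw [h1, h2, hrot, hj3]
      have hp := p.2
      by_cases h : (p : ℕ) + 1 = k * t
      · rw [if_pos h, if_pos (by omega)]
      · rw [if_neg h, if_neg (by omega)]
        omega
    rw [this, hE]

theorem coinc_eq (σ : Equiv.Perm (Fin (k * t))) (τ : Equiv.Perm (Fin (k * t * 3))) :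
    (univ.filter (fun b => rot (mkE1 σ τ) b = s0 (β := 2) (rot (mkE0 σ)) b
      ∨ rot (mkE1 σ τ) (s0 (β := 2) (rot (mkE0 σ)) b) = b)).card ≤ coinc τ := by
  classical
  unfold coinc
  rw [filter_or]
  refine (card_union_le _ _).trans (Nat.add_le_add ?_ ?_)
  · rw [← card_map (mkE1 σ τ).toEmbedding]
    apply card_le_card
    intro b hb
    rw [mem_filter] at hb
    obtain ⟨i, rfl⟩ := (mkE1 σ τ).surjective b
    rw [mem_map]
    refine ⟨i, ?_, rfl⟩
    rw [mem_filter]
    refine ⟨mem_univ _, ?_⟩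
    have h := hb.2
    rw [rotE_apply] at h
    have h2 : mkE1 σ τ i = mkE σ (τ i) := rfl
    have h3 : mkE1 σ τ (finRotate _ i) = mkE σ (τ (finRotate _ i)) := rfl
    rw [h2, s0_mkE, h3] at h
    exact (mkE σ).injective h
  · rw [← card_map (mkE1 σ τ).toEmbedding]
    apply card_le_card_of_injOn (fun b => s0 (β := 2) (rot (mkE0 σ)) b)
    · intro b hb
      have hb' := (mem_filter.mp hb).2
      obtain ⟨y, rfl⟩ := (mkE σ).surjective b
      rw [s0_mkE] at hb'
      simp only [s0_mkE]
      rw [mem_coe, mem_map]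
      refine ⟨τ.symm (finRotate _ y), ?_, ?_⟩
      · rw [mem_filter]
        refine ⟨mem_univ _, ?_⟩
        have h2 : mkE σ (finRotate _ y) = mkE1 σ τ (τ.symm (finRotate _ y)) := by
          simp only [finRotate_apply, mkE1, Equiv.trans_apply, Equiv.apply_symm_apply]
        rw [h2, rotE_apply] at hb'
        have h3 : mkE1 σ τ (finRotate _ (τ.symm (finRotate _ y)))
            = mkE σ (τ (finRotate _ (τ.symm (finRotate _ y)))) := rfl
        rw [h3] at hb'
        have h4 := (mkE σ).injective hb'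
        rw [h4]
        simp only [finRotate_apply, Equiv.apply_symm_apply]
      · simp only [Nat.reduceAdd, mkE1, Equiv.trans_toEmbedding, Function.Embedding.mk_trans_mk, finRotate_apply, Function.Embedding.coeFn_mk, Function.comp_apply, Equiv.apply_symm_apply]
    · intro b _ b' _ h
      obtain ⟨y, rfl⟩ := (mkE σ).surjective b
      obtain ⟨y', rfl⟩ := (mkE σ).surjective b'
      simp only [s0_mkE] at h
      have h1 := (mkE σ).injective h
      have h2 := (finRotate _).injective h1
      rw [h2]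

end Vale.Agent.P333.R2.H205
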