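import Mathlib
import Vale.Agent.P333.R2.H205.Det

/-!
Numerical certificates on rectangles of densities, part 1.
-/

namespace Vale.Agent.P333.R2.H205

open Vale.Agent.P333

/-- Certificate 0. -/
noncomputable def rc00 : Cert1 where
  lam := 399/1000
  a := 2507/1000
  b := 1
  d := 1
  c := 1
  B := 1
  z := 73/500
  y₀ := 33/250
  y₁ := 429/500
  R₀ := 11821/10000
  R₁ := 100379/100000
  v₀ := fun q => if q then 110 else 1
  v₁ := fun q => if q then 343/50 else 1
  lam_pos := by norm_num
  lam_le := by norm_num
  a_ge := by norm_num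
  b_ge := by norm_num
  d_ge := by norm_num
  c_ge := by norm_num
  habc := by norm_num
  hB := by norm_num
  z_pos := by norm_num
  y₀_pos := by norm_num
  y₁_pos := by norm_num
  R₀_pos := by norm_num
  R₁_pos := by norm_num
  v₀_ge := by intro q; cases q <;> norm_num
  v₁_ge := by intro q; cases q <;> norm_num
  v₀_f := by norm_num
  v₁_f := by norm_num
  step₀ := by intro q; cases q <;> norm_num [cellG, cellT, alp]
  step₁ := by intro q; cases q <;> norm_num [cellT]

theorem rc00_good : Good (1/40) (1/10) (0) (33/100) := by
  have hz : rc00.z * rc00.B = 73/500 := by norm_num [rc00]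
  have hy : rc00.y₀ * rc00.y₁ = 14157/125000 := by norm_num [rc00]
  have hR : rc00.R₀ * rc00.R₁ ^ 3 * rc00.B ≤ 1249/1250 * (2661/2500) ^ 3 := by norm_num [rc00]
  refine rc00.good_of _ _ _ _ (by norm_num) (by norm_num) (by norm_num) (by norm_num)
    (1249/1250) (2661/2500) (by norm_num) (by norm_num) ?_ ?_ ?_ ?_ hR
  · rw [hz]
    exact chkq (C := 1249/1250) (Z := 73/500) (by norm_num) (by norm_num) 0 1
      (by norm_num) (by norm_num) (by norm_num) (by norm_num)
  · rw [hz]
    exact chkq (C := 1249/1250) (Z := 73/500) (by norm_num) (by norm_num) 33 100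
      (by norm_num) (by norm_num) (by norm_num) (by norm_num)
  · rw [hy]
    exact chkq (C := 2661/2500) (Z := 14157/125000) (by norm_num) (by norm_num) 1 40
      (by norm_num) (by norm_num) (by norm_num) (by norm_num)
  · rw [hy]
    exact chkq (C := 2661/2500) (Z := 14157/125000) (by norm_num) (by norm_num) 1 10
      (by norm_num) (by norm_num) (by norm_num) (by norm_num)

/-- Certificate 1. -/
noncomputable def rc01 : Cert1 where
  lam := 41/100
  a := 61/25
  b := 1
  d := 1
  c := 1
  B := 1
  z := 26/25
  y₀ := 143/2000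
  y₁ := 871/1000
  R₀ := 21579/10000
  R₁ := 100519/100000
  v₀ := fun q => if q then 300 else 1
  v₁ := fun q => if q then 7453/1000 else 1
  lam_pos := by norm_num
  lam_le := by norm_num
  a_ge := by norm_num
  b_ge := by norm_num
  d_ge := by norm_num
  c_ge := by norm_num
  habc := by norm_num
  hB := by norm_num
  z_pos := by norm_num
  y₀_pos := by norm_num
  y₁_pos := by norm_num
  R₀_pos := by norm_num
  R₁_pos := by norm_num
  v₀_ge := by intro q; cases q <;> norm_num
  v₁_ge := by intro q; cases q <;> norm_num
  v₀_f := by norm_num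
  v₁_f := by norm_num
  step₀ := by intro q; cases q <;> norm_num [cellG, cellT, alp]
  step₁ := by intro q; cases q <;> norm_num [cellT]

theorem rc01_good : Good (1/40) (1/10) (33/100) (69/100) := by
  have hz : rc01.z * rc01.B = 26/25 := by norm_num [rc01]
  have hy : rc01.y₀ * rc01.y₁ = 124553/2000000 := by norm_num [rc01]
  have hR : rc01.R₀ * rc01.R₁ ^ 3 * rc01.B ≤ 9541/5000 * (5243/5000) ^ 3 := by norm_num [rc01]
  refine rc01.good_of _ _ _ _ (by norm_num) (by norm_num) (by norm_num) (by norm_num)
    (9541/5000) (5243/5000) (by norm_num) (by norm_num) ?_ ?_ ?_ ?_ hR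
  · rw [hz]
    exact chkq (C := 9541/5000) (Z := 26/25) (by norm_num) (by norm_num) 33 100
      (by norm_num) (by norm_num) (by norm_num) (by norm_num)
  · rw [hz]
    exact chkq (C := 9541/5000) (Z := 26/25) (by norm_num) (by norm_num) 69 100
      (by norm_num) (by norm_num) (by norm_num) (by norm_num)
  · rw [hy]
    exact chkq (C := 5243/5000) (Z := 124553/2000000) (by norm_num) (by norm_num) 1 40
      (by norm_num) (by norm_num) (by norm_num) (by norm_num)
  · rw [hy]
    exact chkq (C := 5243/5000) (Z := 124553/2000000) (by norm_num) (by norm_num) 1 10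
      (by norm_num) (by norm_num) (by norm_num) (by norm_num)

/-- Certificate 2. -/
noncomputable def rc02 : Cert1 where
  lam := 217/500
  a := 461/200
  b := 1
  d := 1
  c := 1
  B := 1
  z := 91/25
  y₀ := 713/10000
  y₁ := 437/500
  R₀ := 12683/2500
  R₁ := 5041/5000
  v₀ := fun q => if q then 3023/10 else 1
  v₁ := fun q => if q then 1863/250 else 1
  lam_pos := by norm_num
  lam_le := by norm_num
  a_ge := by norm_num
  b_ge := by norm_num
  d_ge := by norm_num
  c_ge := by norm_num
  habc := by norm_num
  hB := by norm_num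
  z_pos := by norm_num
  y₀_pos := by norm_num
  y₁_pos := by norm_num
  R₀_pos := by norm_num
  R₁_pos := by norm_num
  v₀_ge := by intro q; cases q <;> norm_num
  v₁_ge := by intro q; cases q <;> norm_num
  v₀_f := by norm_num
  v₁_f := by norm_num
  step₀ := by intro q; cases q <;> norm_num [cellG, cellT, alp]
  step₁ := by intro q; cases q <;> norm_num [cellT]

theorem rc02_good : Good (1/40) (1/10) (69/100) (87/100) := by
  have hz : rc02.z * rc02.B = 91/25 := by norm_num [rc02]
  have hy : rc02.y₀ * rc02.y₁ = 311581/5000000 := by norm_num [rc02]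
  have hR : rc02.R₀ * rc02.R₁ ^ 3 * rc02.B ≤ 9057/2000 * (5243/5000) ^ 3 := by norm_num [rc02]
  refine rc02.good_of _ _ _ _ (by norm_num) (by norm_num) (by norm_num) (by norm_num)
    (9057/2000) (5243/5000) (by norm_num) (by norm_num) ?_ ?_ ?_ ?_ hR
  · rw [hz]
    exact chkq (C := 9057/2000) (Z := 91/25) (by norm_num) (by norm_num) 69 100
      (by norm_num) (by norm_num) (by norm_num) (by norm_num)
  · rw [hz]
    exact chkq (C := 9057/2000) (Z := 91/25) (by norm_num) (by norm_num) 87 100
      (by norm_num) (by norm_num) (by norm_num) (by norm_num)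
  · rw [hy]
    exact chkq (C := 5243/5000) (Z := 311581/5000000) (by norm_num) (by norm_num) 1 40
      (by norm_num) (by norm_num) (by norm_num) (by norm_num)
  · rw [hy]
    exact chkq (C := 5243/5000) (Z := 311581/5000000) (by norm_num) (by norm_num) 1 10
      (by norm_num) (by norm_num) (by norm_num) (by norm_num)

/-- Certificate 3. -/
noncomputable def rc03 : Cert1 where
  lam := 21/50
  a := 2259/1000
  b := 527/500
  d := 1
  c := 1
  B := 723/500
  z := 857/100
  y₀ := 357/5000
  y₁ := 109/125
  R₀ := 5129/500
  R₁ := 100629/100000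
  v₀ := fun q => if q then 3039/10 else 1
  v₁ := fun q => if q then 7447/1000 else 1
  lam_pos := by norm_num
  lam_le := by norm_num
  a_ge := by norm_num
  b_ge := by norm_num
  d_ge := by norm_num
  c_ge := by norm_num
  habc := by norm_num
  hB := by norm_num
  z_pos := by norm_num
  y₀_pos := by norm_num
  y₁_pos := by norm_num
  R₀_pos := by norm_num
  R₁_pos := by norm_num
  v₀_ge := by intro q; cases q <;> norm_num
  v₁_ge := by intro q; cases q <;> norm_num
  v₀_f := by norm_num
  v₁_f := by norm_num
  step₀ := by intro q; cases q <;> norm_num [cellG, cellT, alp]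
  step₁ := by intro q; cases q <;> norm_num [cellT]

theorem rc03_good : Good (1/40) (1/10) (87/100) (97/100) := by
  have hz : rc03.z * rc03.B = 619611/50000 := by norm_num [rc03]
  have hy : rc03.y₀ * rc03.y₁ = 38913/625000 := by norm_num [rc03]
  have hR : rc03.R₀ * rc03.R₁ ^ 3 * rc03.B ≤ 13147/1000 * (2097/2000) ^ 3 := by norm_num [rc03]
  refine rc03.good_of _ _ _ _ (by norm_num) (by norm_num) (by norm_num) (by norm_num)
    (13147/1000) (2097/2000) (by norm_num) (by norm_num) ?_ ?_ ?_ ?_ hR
  · rw [hz]
    exact chkq (C := 13147/1000) (Z := 619611/50000) (by norm_num) (by norm_num) 87 100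
      (by norm_num) (by norm_num) (by norm_num) (by norm_num)
  · rw [hz]
    exact chkq (C := 13147/1000) (Z := 619611/50000) (by norm_num) (by norm_num) 97 100
      (by norm_num) (by norm_num) (by norm_num) (by norm_num)
  · rw [hy]
    exact chkq (C := 2097/2000) (Z := 38913/625000) (by norm_num) (by norm_num) 1 40
      (by norm_num) (by norm_num) (by norm_num) (by norm_num)
  · rw [hy]
    exact chkq (C := 2097/2000) (Z := 38913/625000) (by norm_num) (by norm_num) 1 10
      (by norm_num) (by norm_num) (by norm_num) (by norm_num)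

/-- Certificate 4. -/
noncomputable def rc04 : Cert1 where
  lam := 52/125
  a := 1053/1000
  b := 457/200
  d := 1
  c := 1
  B := 3253/10
  z := 158/5
  y₀ := 369/500
  y₁ := 417/500
  R₀ := 16533/500
  R₁ := 2511/2500
  v₀ := fun q => if q then 898/125 else 1
  v₁ := fun q => if q then 5869/1000 else 1
  lam_pos := by norm_num
  lam_le := by norm_num
  a_ge := by norm_num
  b_ge := by norm_num
  d_ge := by norm_num
  c_ge := by norm_num
  habc := by norm_num
  hB := by norm_num
  z_pos := by norm_num
  y₀_pos := by norm_num
  y₁_pos := by norm_num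
  R₀_pos := by norm_num
  R₁_pos := by norm_num
  v₀_ge := by intro q; cases q <;> norm_num
  v₁_ge := by intro q; cases q <;> norm_num
  v₀_f := by norm_num
  v₁_f := by norm_num
  step₀ := by intro q; cases q <;> norm_num [cellG, cellT, alp]
  step₁ := by intro q; cases q <;> norm_num [cellT]

theorem rc04_good : Good (1/40) (1/10) (97/100) (1) := by
  have hz : rc04.z * rc04.B = 256987/25 := by norm_num [rc04]
  have hy : rc04.y₀ * rc04.y₁ = 153873/250000 := by norm_num [rc04]
  have hR : rc04.R₀ * rc04.R₁ ^ 3 * rc04.B ≤ 89151/10 * (694/625) ^ 3 := by norm_num [rc04]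
  refine rc04.good_of _ _ _ _ (by norm_num) (by norm_num) (by norm_num) (by norm_num)
    (89151/10) (694/625) (by norm_num) (by norm_num) ?_ ?_ ?_ ?_ hR
  · rw [hz]
    exact chkq (C := 89151/10) (Z := 256987/25) (by norm_num) (by norm_num) 97 100
      (by norm_num) (by norm_num) (by norm_num) (by norm_num)
  · rw [hz]
    exact chkq (C := 89151/10) (Z := 256987/25) (by norm_num) (by norm_num) 1 1
      (by norm_num) (by norm_num) (by norm_num) (by norm_num)
  · rw [hy]
    exact chkq (C := 694/625) (Z := 153873/250000) (by norm_num) (by norm_num) 1 40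
      (by norm_num) (by norm_num) (by norm_num) (by norm_num)
  · rw [hy]
    exact chkq (C := 694/625) (Z := 153873/250000) (by norm_num) (by norm_num) 1 10
      (by norm_num) (by norm_num) (by norm_num) (by norm_num)

/-- Certificate 5. -/
noncomputable def rc05 : Cert1 where
  lam := 487/1000
  a := 1027/500
  b := 1
  d := 1
  c := 1
  B := 1
  z := 309/1000
  y₀ := 201/1000
  y₁ := 863/1000
  R₀ := 14791/10000
  R₁ := 50883/50000
  v₀ := fun q => if q then 5817/100 else 1
  v₁ := fun q => if q then 3233/500 else 1
  lam_pos := by norm_num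
  lam_le := by norm_num
  a_ge := by norm_num
  b_ge := by norm_num
  d_ge := by norm_num
  c_ge := by norm_num
  habc := by norm_num
  hB := by norm_num
  z_pos := by norm_num
  y₀_pos := by norm_num
  y₁_pos := by norm_num
  R₀_pos := by norm_num
  R₁_pos := by norm_num
  v₀_ge := by intro q; cases q <;> norm_num
  v₁_ge := by intro q; cases q <;> norm_num
  v₀_f := by norm_num
  v₁_f := by norm_num
  step₀ := by intro q; cases q <;> norm_num [cellG, cellT, alp]
  step₁ := by intro q; cases q <;> norm_num [cellT]

theorem rc05_good : Good (1/10) (1/5) (0) (29/50) := by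
  have hz : rc05.z * rc05.B = 309/1000 := by norm_num [rc05]
  have hy : rc05.y₀ * rc05.y₁ = 173463/1000000 := by norm_num [rc05]
  have hR : rc05.R₀ * rc05.R₁ ^ 3 * rc05.B ≤ 99913/100000 * (11617/10000) ^ 3 := by norm_num [rc05]
  refine rc05.good_of _ _ _ _ (by norm_num) (by norm_num) (by norm_num) (by norm_num)
    (99913/100000) (11617/10000) (by norm_num) (by norm_num) ?_ ?_ ?_ ?_ hR
  · rw [hz]
    exact chkq (C := 99913/100000) (Z := 309/1000) (by norm_num) (by norm_num) 0 1
      (by norm_num) (by norm_num) (by norm_num) (by norm_num)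
  · rw [hz]
    exact chkq (C := 99913/100000) (Z := 309/1000) (by norm_num) (by norm_num) 29 50
      (by norm_num) (by norm_num) (by norm_num) (by norm_num)
  · rw [hy]
    exact chkq (C := 11617/10000) (Z := 173463/1000000) (by norm_num) (by norm_num) 1 10
      (by norm_num) (by norm_num) (by norm_num) (by norm_num)
  · rw [hy]
    exact chkq (C := 11617/10000) (Z := 173463/1000000) (by norm_num) (by norm_num) 1 5
      (by norm_num) (by norm_num) (by norm_num) (by norm_num)

/-- Certificate 6. -/
noncomputable def rc06 : Cert1 where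
  lam := 21/40
  a := 1823/1000
  b := 209/200
  d := 1
  c := 1
  B := 1361/1000
  z := 151/100
  y₀ := 199/1000
  y₁ := 109/125
  R₀ := 15669/5000
  R₁ := 20631/20000
  v₀ := fun q => if q then 1459/25 else 1
  v₁ := fun q => if q then 1567/250 else 1
  lam_pos := by norm_num
  lam_le := by norm_num
  a_ge := by norm_num
  b_ge := by norm_num
  d_ge := by norm_num
  c_ge := by norm_num
  habc := by norm_num
  hB := by norm_num
  z_pos := by norm_num
  y₀_pos := by norm_num
  y₁_pos := by norm_num
  R₀_pos := by norm_num
  R₁_pos := by norm_num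
  v₀_ge := by intro q; cases q <;> norm_num
  v₁_ge := by intro q; cases q <;> norm_num
  v₀_f := by norm_num
  v₁_f := by norm_num
  step₀ := by intro q; cases q <;> norm_num [cellG, cellT, alp]
  step₁ := by intro q; cases q <;> norm_num [cellT]

theorem rc06_good : Good (1/10) (1/5) (29/50) (19/25) := by
  have hz : rc06.z * rc06.B = 205511/100000 := by norm_num [rc06]
  have hy : rc06.y₀ * rc06.y₁ = 21691/125000 := by norm_num [rc06]
  have hR : rc06.R₀ * rc06.R₁ ^ 3 * rc06.B ≤ 1874/625 * (11617/10000) ^ 3 := by norm_num [rc06]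
  refine rc06.good_of _ _ _ _ (by norm_num) (by norm_num) (by norm_num) (by norm_num)
    (1874/625) (11617/10000) (by norm_num) (by norm_num) ?_ ?_ ?_ ?_ hR
  · rw [hz]
    exact chkq (C := 1874/625) (Z := 205511/100000) (by norm_num) (by norm_num) 29 50
      (by norm_num) (by norm_num) (by norm_num) (by norm_num)
  · rw [hz]
    exact chkq (C := 1874/625) (Z := 205511/100000) (by norm_num) (by norm_num) 19 25
      (by norm_num) (by norm_num) (by norm_num) (by norm_num)
  · rw [hy]
    exact chkq (C := 11617/10000) (Z := 21691/125000) (by norm_num) (by norm_num) 1 10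
      (by norm_num) (by norm_num) (by norm_num) (by norm_num)
  · rw [hy]
    exact chkq (C := 11617/10000) (Z := 21691/125000) (by norm_num) (by norm_num) 1 5
      (by norm_num) (by norm_num) (by norm_num) (by norm_num)

/-- Certificate 7. -/
noncomputable def rc07 : Cert1 where
  lam := 249/500
  a := 869/500
  b := 289/250
  d := 1
  c := 1
  B := 2759/1000
  z := 78/25
  y₀ := 201/1000
  y₁ := 861/1000
  R₀ := 47331/10000
  R₁ := 25511/25000
  v₀ := fun q => if q then 2789/50 else 1
  v₁ := fun q => if q then 784/125 else 1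
  lam_pos := by norm_num
  lam_le := by norm_num
  a_ge := by norm_num
  b_ge := by norm_num
  d_ge := by norm_num
  c_ge := by norm_num
  habc := by norm_num
  hB := by norm_num
  z_pos := by norm_num
  y₀_pos := by norm_num
  y₁_pos := by norm_num
  R₀_pos := by norm_num
  R₁_pos := by norm_num
  v₀_ge := by intro q; cases q <;> norm_num
  v₁_ge := by intro q; cases q <;> norm_num
  v₀_f := by norm_num
  v₁_f := by norm_num
  step₀ := by intro q; cases q <;> norm_num [cellG, cellT, alp]
  step₁ := by intro q; cases q <;> norm_num [cellT]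

theorem rc07_good : Good (1/10) (1/5) (19/25) (99/100) := by
  have hz : rc07.z * rc07.B = 107601/12500 := by norm_num [rc07]
  have hy : rc07.y₀ * rc07.y₁ = 173061/1000000 := by norm_num [rc07]
  have hR : rc07.R₀ * rc07.R₁ ^ 3 * rc07.B ≤ 11137/1250 * (11613/10000) ^ 3 := by norm_num [rc07]
  refine rc07.good_of _ _ _ _ (by norm_num) (by norm_num) (by norm_num) (by norm_num)
    (11137/1250) (11613/10000) (by norm_num) (by norm_num) ?_ ?_ ?_ ?_ hR
  · rw [hz]
    exact chkq (C := 11137/1250) (Z := 107601/12500) (by norm_num) (by norm_num) 19 25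
      (by norm_num) (by norm_num) (by norm_num) (by norm_num)
  · rw [hz]
    exact chkq (C := 11137/1250) (Z := 107601/12500) (by norm_num) (by norm_num) 99 100
      (by norm_num) (by norm_num) (by norm_num) (by norm_num)
  · rw [hy]
    exact chkq (C := 11613/10000) (Z := 173061/1000000) (by norm_num) (by norm_num) 1 10
      (by norm_num) (by norm_num) (by norm_num) (by norm_num)
  · rw [hy]
    exact chkq (C := 11613/10000) (Z := 173061/1000000) (by norm_num) (by norm_num) 1 5
      (by norm_num) (by norm_num) (by norm_num) (by norm_num)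

/-- Certificate 8. -/
noncomputable def rc08 : Cert1 where
  lam := 561/100000
  a := 1
  b := 1481/1000
  d := 639/500
  c := 9421/100
  B := 45460000000000000000000000000000
  z := 981/10
  y₀ := 163000
  y₁ := 1
  R₀ := 10001/100
  R₁ := 5001/5000
  v₀ := fun q => if q then 2141/1000 else 1
  v₁ := fun q => if q then 5001 else 1
  lam_pos := by norm_num
  lam_le := by norm_num
  a_ge := by norm_num
  b_ge := by norm_num
  d_ge := by norm_num
  c_ge := by norm_num
  habc := by norm_num
  hB := by norm_num
  z_pos := by norm_num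
  y₀_pos := by norm_num
  y₁_pos := by norm_num
  R₀_pos := by norm_num
  R₁_pos := by norm_num
  v₀_ge := by intro q; cases q <;> norm_num
  v₁_ge := by intro q; cases q <;> norm_num
  v₀_f := by norm_num
  v₁_f := by norm_num
  step₀ := by intro q; cases q <;> norm_num [cellG, cellT, alp]
  step₁ := by intro q; cases q <;> norm_num [cellT]

theorem rc08_good : Good (1/10) (1/5) (99/100) (1) := by
  have hz : rc08.z * rc08.B = 4459626000000000000000000000000000 := by norm_num [rc08]
  have hy : rc08.y₀ * rc08.y₁ = 163000 := by norm_num [rc08]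
  have hR : rc08.R₀ * rc08.R₁ ^ 3 * rc08.B ≤ 2173300000000000000000000000000000 * (22981/5000) ^ 3 := by norm_num [rc08]
  refine rc08.good_of _ _ _ _ (by norm_num) (by norm_num) (by norm_num) (by norm_num)
    (2173300000000000000000000000000000) (22981/5000) (by norm_num) (by norm_num) ?_ ?_ ?_ ?_ hR
  · rw [hz]
    exact chkq (C := 2173300000000000000000000000000000) (Z := 4459626000000000000000000000000000) (by norm_num) (by norm_num) 99 100
      (by norm_num) (by norm_num) (by norm_num) (by norm_num)
  · rw [hz]
    exact chkq (C := 2173300000000000000000000000000000) (Z := 4459626000000000000000000000000000) (by norm_num) (by norm_num) 1 1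
      (by norm_num) (by norm_num) (by norm_num) (by norm_num)
  · rw [hy]
    exact chkq (C := 22981/5000) (Z := 163000) (by norm_num) (by norm_num) 1 10
      (by norm_num) (by norm_num) (by norm_num) (by norm_num)
  · rw [hy]
    exact chkq (C := 22981/5000) (Z := 163000) (by norm_num) (by norm_num) 1 5
      (by norm_num) (by norm_num) (by norm_num) (by norm_num)

/-- Certificate 9. -/
noncomputable def rc09 : Cert1 where
  lam := 577/1000
  a := 867/500
  b := 1
  d := 1
  c := 1
  B := 1
  z := 159/500
  y₀ := 73/200
  y₁ := 907/1000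
  R₀ := 3739/2000
  R₁ := 53443/50000
  v₀ := fun q => if q then 499/20 else 1
  v₁ := fun q => if q then 6179/1000 else 1
  lam_pos := by norm_num
  lam_le := by norm_num
  a_ge := by norm_num
  b_ge := by norm_num
  d_ge := by norm_num
  c_ge := by norm_num
  habc := by norm_num
  hB := by norm_num
  z_pos := by norm_num
  y₀_pos := by norm_num
  y₁_pos := by norm_num
  R₀_pos := by norm_num
  R₁_pos := by norm_num
  v₀_ge := by intro q; cases q <;> norm_num
  v₁_ge := by intro q; cases q <;> norm_num
  v₀_f := by norm_num
  v₁_f := by norm_num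
  step₀ := by intro q; cases q <;> norm_num [cellG, cellT, alp]
  step₁ := by intro q; cases q <;> norm_num [cellT]

theorem rc09_good : Good (1/5) (3/10) (0) (59/100) := by
  have hz : rc09.z * rc09.B = 159/500 := by norm_num [rc09]
  have hy : rc09.y₀ * rc09.y₁ = 66211/200000 := by norm_num [rc09]
  have hR : rc09.R₀ * rc09.R₁ ^ 3 * rc09.B ≤ 1 * (13221/10000) ^ 3 := by norm_num [rc09]
  refine rc09.good_of _ _ _ _ (by norm_num) (by norm_num) (by norm_num) (by norm_num)
    (1) (13221/10000) (by norm_num) (by norm_num) ?_ ?_ ?_ ?_ hR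
  · rw [hz]
    exact chkq (C := 1) (Z := 159/500) (by norm_num) (by norm_num) 0 1
      (by norm_num) (by norm_num) (by norm_num) (by norm_num)
  · rw [hz]
    exact chkq (C := 1) (Z := 159/500) (by norm_num) (by norm_num) 59 100
      (by norm_num) (by norm_num) (by norm_num) (by norm_num)
  · rw [hy]
    exact chkq (C := 13221/10000) (Z := 66211/200000) (by norm_num) (by norm_num) 1 5
      (by norm_num) (by norm_num) (by norm_num) (by norm_num)
  · rw [hy]
    exact chkq (C := 13221/10000) (Z := 66211/200000) (by norm_num) (by norm_num) 3 10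
      (by norm_num) (by norm_num) (by norm_num) (by norm_num)

/-- Certificate 10. -/
noncomputable def rc10 : Cert1 where
  lam := 283/500
  a := 1563/1000
  b := 1131/1000
  d := 1
  c := 1
  B := 296/125
  z := 403/500
  y₀ := 93/250
  y₁ := 89/100
  R₀ := 2979/1250
  R₁ := 105637/100000
  v₀ := fun q => if q then 568/25 else 1
  v₁ := fun q => if q then 6011/1000 else 1
  lam_pos := by norm_num
  lam_le := by norm_num
  a_ge := by norm_num
  b_ge := by norm_num
  d_ge := by norm_num
  c_ge := by norm_num
  habc := by norm_num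
  hB := by norm_num
  z_pos := by norm_num
  y₀_pos := by norm_num
  y₁_pos := by norm_num
  R₀_pos := by norm_num
  R₁_pos := by norm_num
  v₀_ge := by intro q; cases q <;> norm_num
  v₁_ge := by intro q; cases q <;> norm_num
  v₀_f := by norm_num
  v₁_f := by norm_num
  step₀ := by intro q; cases q <;> norm_num [cellG, cellT, alp]
  step₁ := by intro q; cases q <;> norm_num [cellT]

theorem rc10_good : Good (1/5) (3/10) (59/100) (18/25) := by
  have hz : rc10.z * rc10.B = 29822/15625 := by norm_num [rc10]
  have hy : rc10.y₀ * rc10.y₁ = 8277/25000 := by norm_num [rc10]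
  have hR : rc10.R₀ * rc10.R₁ ^ 3 * rc10.B ≤ 7203/2500 * (13221/10000) ^ 3 := by norm_num [rc10]
  refine rc10.good_of _ _ _ _ (by norm_num) (by norm_num) (by norm_num) (by norm_num)
    (7203/2500) (13221/10000) (by norm_num) (by norm_num) ?_ ?_ ?_ ?_ hR
  · rw [hz]
    exact chkq (C := 7203/2500) (Z := 29822/15625) (by norm_num) (by norm_num) 59 100
      (by norm_num) (by norm_num) (by norm_num) (by norm_num)
  · rw [hz]
    exact chkq (C := 7203/2500) (Z := 29822/15625) (by norm_num) (by norm_num) 18 25
      (by norm_num) (by norm_num) (by norm_num) (by norm_num)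
  · rw [hy]
    exact chkq (C := 13221/10000) (Z := 8277/25000) (by norm_num) (by norm_num) 1 5
      (by norm_num) (by norm_num) (by norm_num) (by norm_num)
  · rw [hy]
    exact chkq (C := 13221/10000) (Z := 8277/25000) (by norm_num) (by norm_num) 3 10
      (by norm_num) (by norm_num) (by norm_num) (by norm_num)

end Vale.Agent.P333.R2.H205
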