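import Mathlib
import Vale.Agent.P333.R2.H205.Det

/-!
Numerical certificates on rectangles of densities, part 3.
-/

namespace Vale.Agent.P333.R2.H205

open Vale.Agent.P333

/-- Certificate 22. -/
noncomputable def rc22 : Cert1 where
  lam := 2959/5000
  a := 736/625
  b := 287/200
  d := 1
  c := 1
  B := 12531/1000
  z := 1599/25000
  y₀ := 1729/1000
  y₁ := 1077/1000
  R₀ := 40953/20000
  R₁ := 292873/250000
  v₀ := fun q => if q then 51303/10000 else 1
  v₁ := fun q => if q then 10583/1000 else 1
  lam_pos := by norm_num
  lam_le := by norm_num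
  a_ge := by norm_num
  b_ge := by norm_num
  d_ge := by norm_num
  c_ge := by norm_num
  habc := by norm_num
  hB := by norm_num
  z_pos := by norm_num
  y₀_pos := by norm_num
  y₁_pos := by norm_num
  R₀_pos := by norm_num
  R₁_pos := by norm_num
  v₀_ge := by intro q; cases q <;> norm_num
  v₁_ge := by intro q; cases q <;> norm_num
  v₀_f := by norm_num
  v₁_f := by norm_num
  step₀ := by intro q; cases q <;> norm_num [cellG, cellT, alp]
  step₁ := by intro q; cases q <;> norm_num [cellT]

theorem rc22_good : Good (3/5) (7/10) (2/5) (49/100) := by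
  have hz : rc22.z * rc22.B = 20037069/25000000 := by norm_num [rc22]
  have hy : rc22.y₀ * rc22.y₁ = 1862133/1000000 := by norm_num [rc22]
  have hR : rc22.R₀ * rc22.R₁ ^ 3 * rc22.B ≤ 11213/6250 * (284637/100000) ^ 3 := by norm_num [rc22]
  refine rc22.good_of _ _ _ _ (by norm_num) (by norm_num) (by norm_num) (by norm_num)
    (11213/6250) (284637/100000) (by norm_num) (by norm_num) ?_ ?_ ?_ ?_ hR
  · rw [hz]
    exact chkq (C := 11213/6250) (Z := 20037069/25000000) (by norm_num) (by norm_num) 2 5
      (by norm_num) (by norm_num) (by norm_num) (by norm_num)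
  · rw [hz]
    exact chkq (C := 11213/6250) (Z := 20037069/25000000) (by norm_num) (by norm_num) 49 100
      (by norm_num) (by norm_num) (by norm_num) (by norm_num)
  · rw [hy]
    exact chkq (C := 284637/100000) (Z := 1862133/1000000) (by norm_num) (by norm_num) 3 5
      (by norm_num) (by norm_num) (by norm_num) (by norm_num)
  · rw [hy]
    exact chkq (C := 284637/100000) (Z := 1862133/1000000) (by norm_num) (by norm_num) 7 10
      (by norm_num) (by norm_num) (by norm_num) (by norm_num)

/-- Certificate 23. -/
noncomputable def rc23 : Cert1 where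
  lam := 119/200
  a := 1011/1000
  b := 1663/1000
  d := 1
  c := 1
  B := 1759/50
  z := 171/1000
  y₀ := 19/10
  y₁ := 21/20
  R₀ := 10997/5000
  R₁ := 23117/20000
  v₀ := fun q => if q then 484/125 else 1
  v₁ := fun q => if q then 1181/125 else 1
  lam_pos := by norm_num
  lam_le := by norm_num
  a_ge := by norm_num
  b_ge := by norm_num
  d_ge := by norm_num
  c_ge := by norm_num
  habc := by norm_num
  hB := by norm_num
  z_pos := by norm_num
  y₀_pos := by norm_num
  y₁_pos := by norm_num
  R₀_pos := by norm_num
  R₁_pos := by norm_num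
  v₀_ge := by intro q; cases q <;> norm_num
  v₁_ge := by intro q; cases q <;> norm_num
  v₀_f := by norm_num
  v₁_f := by norm_num
  step₀ := by intro q; cases q <;> norm_num [cellG, cellT, alp]
  step₁ := by intro q; cases q <;> norm_num [cellT]

theorem rc23_good : Good (3/5) (7/10) (49/100) (1) := by
  have hz : rc23.z * rc23.B = 300789/50000 := by norm_num [rc23]
  have hy : rc23.y₀ * rc23.y₁ = 399/200 := by norm_num [rc23]
  have hR : rc23.R₀ * rc23.R₁ ^ 3 * rc23.B ≤ 12043/2500 * (5933/2000) ^ 3 := by norm_num [rc23]
  refine rc23.good_of _ _ _ _ (by norm_num) (by norm_num) (by norm_num) (by norm_num)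
    (12043/2500) (5933/2000) (by norm_num) (by norm_num) ?_ ?_ ?_ ?_ hR
  · rw [hz]
    exact chkq (C := 12043/2500) (Z := 300789/50000) (by norm_num) (by norm_num) 49 100
      (by norm_num) (by norm_num) (by norm_num) (by norm_num)
  · rw [hz]
    exact chkq (C := 12043/2500) (Z := 300789/50000) (by norm_num) (by norm_num) 1 1
      (by norm_num) (by norm_num) (by norm_num) (by norm_num)
  · rw [hy]
    exact chkq (C := 5933/2000) (Z := 399/200) (by norm_num) (by norm_num) 3 5
      (by norm_num) (by norm_num) (by norm_num) (by norm_num)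
  · rw [hy]
    exact chkq (C := 5933/2000) (Z := 399/200) (by norm_num) (by norm_num) 7 10
      (by norm_num) (by norm_num) (by norm_num) (by norm_num)

/-- Certificate 24. -/
noncomputable def rc24 : Cert1 where
  lam := 547/1000
  a := 1241/1000
  b := 737/500
  d := 1
  c := 1
  B := 378/25
  z := 97/10000
  y₀ := 66/25
  y₁ := 57/50
  R₀ := 24829/10000
  R₁ := 2377/2000
  v₀ := fun q => if q then 2953/500 else 1
  v₁ := fun q => if q then 2063/100 else 1
  lam_pos := by norm_num
  lam_le := by norm_num
  a_ge := by norm_num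
  b_ge := by norm_num
  d_ge := by norm_num
  c_ge := by norm_num
  habc := by norm_num
  hB := by norm_num
  z_pos := by norm_num
  y₀_pos := by norm_num
  y₁_pos := by norm_num
  R₀_pos := by norm_num
  R₁_pos := by norm_num
  v₀_ge := by intro q; cases q <;> norm_num
  v₁_ge := by intro q; cases q <;> norm_num
  v₀_f := by norm_num
  v₁_f := by norm_num
  step₀ := by intro q; cases q <;> norm_num [cellG, cellT, alp]
  step₁ := by intro q; cases q <;> norm_num [cellT]

theorem rc24_good : Good (7/10) (4/5) (0) (33/100) := by
  have hz : rc24.z * rc24.B = 18333/125000 := by norm_num [rc24]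
  have hy : rc24.y₀ * rc24.y₁ = 1881/625 := by norm_num [rc24]
  have hR : rc24.R₀ * rc24.R₁ ^ 3 * rc24.B ≤ 1 * (19911/5000) ^ 3 := by norm_num [rc24]
  refine rc24.good_of _ _ _ _ (by norm_num) (by norm_num) (by norm_num) (by norm_num)
    (1) (19911/5000) (by norm_num) (by norm_num) ?_ ?_ ?_ ?_ hR
  · rw [hz]
    exact chkq (C := 1) (Z := 18333/125000) (by norm_num) (by norm_num) 0 1
      (by norm_num) (by norm_num) (by norm_num) (by norm_num)
  · rw [hz]
    exact chkq (C := 1) (Z := 18333/125000) (by norm_num) (by norm_num) 33 100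
      (by norm_num) (by norm_num) (by norm_num) (by norm_num)
  · rw [hy]
    exact chkq (C := 19911/5000) (Z := 1881/625) (by norm_num) (by norm_num) 7 10
      (by norm_num) (by norm_num) (by norm_num) (by norm_num)
  · rw [hy]
    exact chkq (C := 19911/5000) (Z := 1881/625) (by norm_num) (by norm_num) 4 5
      (by norm_num) (by norm_num) (by norm_num) (by norm_num)

/-- Certificate 25. -/
noncomputable def rc25 : Cert1 where
  lam := 71/125
  a := 1113/1000
  b := 791/500
  d := 1
  c := 1
  B := 124/5
  z := 67/2500
  y₀ := 269/100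
  y₁ := 28/25
  R₀ := 25197/10000
  R₁ := 23709/20000
  v₀ := fun q => if q then 2019/500 else 1
  v₁ := fun q => if q then 382/25 else 1
  lam_pos := by norm_num
  lam_le := by norm_num
  a_ge := by norm_num
  b_ge := by norm_num
  d_ge := by norm_num
  c_ge := by norm_num
  habc := by norm_num
  hB := by norm_num
  z_pos := by norm_num
  y₀_pos := by norm_num
  y₁_pos := by norm_num
  R₀_pos := by norm_num
  R₁_pos := by norm_num
  v₀_ge := by intro q; cases q <;> norm_num
  v₁_ge := by intro q; cases q <;> norm_num
  v₀_f := by norm_num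
  v₁_f := by norm_num
  step₀ := by intro q; cases q <;> norm_num [cellG, cellT, alp]
  step₁ := by intro q; cases q <;> norm_num [cellT]

theorem rc25_good : Good (7/10) (4/5) (33/100) (47/100) := by
  have hz : rc25.z * rc25.B = 2077/3125 := by norm_num [rc25]
  have hy : rc25.y₀ * rc25.y₁ = 1883/625 := by norm_num [rc25]
  have hR : rc25.R₀ * rc25.R₁ ^ 3 * rc25.B ≤ 4119/2500 * (2491/625) ^ 3 := by norm_num [rc25]
  refine rc25.good_of _ _ _ _ (by norm_num) (by norm_num) (by norm_num) (by norm_num)
    (4119/2500) (2491/625) (by norm_num) (by norm_num) ?_ ?_ ?_ ?_ hR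
  · rw [hz]
    exact chkq (C := 4119/2500) (Z := 2077/3125) (by norm_num) (by norm_num) 33 100
      (by norm_num) (by norm_num) (by norm_num) (by norm_num)
  · rw [hz]
    exact chkq (C := 4119/2500) (Z := 2077/3125) (by norm_num) (by norm_num) 47 100
      (by norm_num) (by norm_num) (by norm_num) (by norm_num)
  · rw [hy]
    exact chkq (C := 2491/625) (Z := 1883/625) (by norm_num) (by norm_num) 7 10
      (by norm_num) (by norm_num) (by norm_num) (by norm_num)
  · rw [hy]
    exact chkq (C := 2491/625) (Z := 1883/625) (by norm_num) (by norm_num) 4 5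
      (by norm_num) (by norm_num) (by norm_num) (by norm_num)

/-- Certificate 26. -/
noncomputable def rc26 : Cert1 where
  lam := 57/100
  a := 1
  b := 1
  d := 439/250
  c := 1
  B := 9041/100
  z := 403/5000
  y₀ := 323/100
  y₁ := 11/10
  R₀ := 7039/2500
  R₁ := 29287/25000
  v₀ := fun q => if q then 2679/1000 else 1
  v₁ := fun q => if q then 1399/100 else 1
  lam_pos := by norm_num
  lam_le := by norm_num
  a_ge := by norm_num
  b_ge := by norm_num
  d_ge := by norm_num
  c_ge := by norm_num
  habc := by norm_num
  hB := by norm_num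
  z_pos := by norm_num
  y₀_pos := by norm_num
  y₁_pos := by norm_num
  R₀_pos := by norm_num
  R₁_pos := by norm_num
  v₀_ge := by intro q; cases q <;> norm_num
  v₁_ge := by intro q; cases q <;> norm_num
  v₀_f := by norm_num
  v₁_f := by norm_num
  step₀ := by intro q; cases q <;> norm_num [cellG, cellT, alp]
  step₁ := by intro q; cases q <;> norm_num [cellT]

theorem rc26_good : Good (7/10) (4/5) (47/100) (1) := by
  have hz : rc26.z * rc26.B = 3643523/500000 := by norm_num [rc26]
  have hy : rc26.y₀ * rc26.y₁ = 3553/1000 := by norm_num [rc26]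
  have hR : rc26.R₀ * rc26.R₁ ^ 3 * rc26.B ≤ 25387/5000 * (44741/10000) ^ 3 := by norm_num [rc26]
  refine rc26.good_of _ _ _ _ (by norm_num) (by norm_num) (by norm_num) (by norm_num)
    (25387/5000) (44741/10000) (by norm_num) (by norm_num) ?_ ?_ ?_ ?_ hR
  · rw [hz]
    exact chkq (C := 25387/5000) (Z := 3643523/500000) (by norm_num) (by norm_num) 47 100
      (by norm_num) (by norm_num) (by norm_num) (by norm_num)
  · rw [hz]
    exact chkq (C := 25387/5000) (Z := 3643523/500000) (by norm_num) (by norm_num) 1 1
      (by norm_num) (by norm_num) (by norm_num) (by norm_num)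
  · rw [hy]
    exact chkq (C := 44741/10000) (Z := 3553/1000) (by norm_num) (by norm_num) 7 10
      (by norm_num) (by norm_num) (by norm_num) (by norm_num)
  · rw [hy]
    exact chkq (C := 44741/10000) (Z := 3553/1000) (by norm_num) (by norm_num) 4 5
      (by norm_num) (by norm_num) (by norm_num) (by norm_num)

/-- Certificate 27. -/
noncomputable def rc27 : Cert1 where
  lam := 247/500
  a := 1171/1000
  b := 1729/1000
  d := 1
  c := 1
  B := 231/5
  z := 207/100000
  y₀ := 124/25
  y₁ := 29/25
  R₀ := 9701/2500
  R₁ := 23651/20000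
  v₀ := fun q => if q then 2547/500 else 1
  v₁ := fun q => if q then 4437/100 else 1
  lam_pos := by norm_num
  lam_le := by norm_num
  a_ge := by norm_num
  b_ge := by norm_num
  d_ge := by norm_num
  c_ge := by norm_num
  habc := by norm_num
  hB := by norm_num
  z_pos := by norm_num
  y₀_pos := by norm_num
  y₁_pos := by norm_num
  R₀_pos := by norm_num
  R₁_pos := by norm_num
  v₀_ge := by intro q; cases q <;> norm_num
  v₁_ge := by intro q; cases q <;> norm_num
  v₀_f := by norm_num
  v₁_f := by norm_num
  step₀ := by intro q; cases q <;> norm_num [cellG, cellT, alp]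
  step₁ := by intro q; cases q <;> norm_num [cellT]

theorem rc27_good : Good (4/5) (9/10) (0) (23/100) := by
  have hz : rc27.z * rc27.B = 47817/500000 := by norm_num [rc27]
  have hy : rc27.y₀ * rc27.y₁ = 3596/625 := by norm_num [rc27]
  have hR : rc27.R₀ * rc27.R₁ ^ 3 * rc27.B ≤ 99941/100000 * (33427/5000) ^ 3 := by norm_num [rc27]
  refine rc27.good_of _ _ _ _ (by norm_num) (by norm_num) (by norm_num) (by norm_num)
    (99941/100000) (33427/5000) (by norm_num) (by norm_num) ?_ ?_ ?_ ?_ hR
  · rw [hz]
    exact chkq (C := 99941/100000) (Z := 47817/500000) (by norm_num) (by norm_num) 0 1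
      (by norm_num) (by norm_num) (by norm_num) (by norm_num)
  · rw [hz]
    exact chkq (C := 99941/100000) (Z := 47817/500000) (by norm_num) (by norm_num) 23 100
      (by norm_num) (by norm_num) (by norm_num) (by norm_num)
  · rw [hy]
    exact chkq (C := 33427/5000) (Z := 3596/625) (by norm_num) (by norm_num) 4 5
      (by norm_num) (by norm_num) (by norm_num) (by norm_num)
  · rw [hy]
    exact chkq (C := 33427/5000) (Z := 3596/625) (by norm_num) (by norm_num) 9 10
      (by norm_num) (by norm_num) (by norm_num) (by norm_num)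

/-- Certificate 28. -/
noncomputable def rc28 : Cert1 where
  lam := 5241/10000
  a := 10487/10000
  b := 4549/2500
  d := 1
  c := 1
  B := 16511/250
  z := 141/20000
  y₀ := 2517/500
  y₁ := 1147/1000
  R₀ := 396061/100000
  R₁ := 591367/500000
  v₀ := fun q => if q then 30277/10000 else 1
  v₁ := fun q => if q then 13993/500 else 1
  lam_pos := by norm_num
  lam_le := by norm_num
  a_ge := by norm_num
  b_ge := by norm_num
  d_ge := by norm_num
  c_ge := by norm_num
  habc := by norm_num
  hB := by norm_num
  z_pos := by norm_num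
  y₀_pos := by norm_num
  y₁_pos := by norm_num
  R₀_pos := by norm_num
  R₁_pos := by norm_num
  v₀_ge := by intro q; cases q <;> norm_num
  v₁_ge := by intro q; cases q <;> norm_num
  v₀_f := by norm_num
  v₁_f := by norm_num
  step₀ := by intro q; cases q <;> norm_num [cellG, cellT, alp]
  step₁ := by intro q; cases q <;> norm_num [cellT]

theorem rc28_good : Good (4/5) (9/10) (23/100) (41/100) := by
  have hz : rc28.z * rc28.B = 2328051/5000000 := by norm_num [rc28]
  have hy : rc28.y₀ * rc28.y₁ = 2886999/500000 := by norm_num [rc28]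
  have hR : rc28.R₀ * rc28.R₁ ^ 3 * rc28.B ≤ 35957/25000 * (670661/100000) ^ 3 := by norm_num [rc28]
  refine rc28.good_of _ _ _ _ (by norm_num) (by norm_num) (by norm_num) (by norm_num)
    (35957/25000) (670661/100000) (by norm_num) (by norm_num) ?_ ?_ ?_ ?_ hR
  · rw [hz]
    exact chkq (C := 35957/25000) (Z := 2328051/5000000) (by norm_num) (by norm_num) 23 100
      (by norm_num) (by norm_num) (by norm_num) (by norm_num)
  · rw [hz]
    exact chkq (C := 35957/25000) (Z := 2328051/5000000) (by norm_num) (by norm_num) 41 100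
      (by norm_num) (by norm_num) (by norm_num) (by norm_num)
  · rw [hy]
    exact chkq (C := 670661/100000) (Z := 2886999/500000) (by norm_num) (by norm_num) 4 5
      (by norm_num) (by norm_num) (by norm_num) (by norm_num)
  · rw [hy]
    exact chkq (C := 670661/100000) (Z := 2886999/500000) (by norm_num) (by norm_num) 9 10
      (by norm_num) (by norm_num) (by norm_num) (by norm_num)

/-- Certificate 29. -/
noncomputable def rc29 : Cert1 where
  lam := 66/125
  a := 1
  b := 1
  d := 947/500
  c := 1
  B := 828/5
  z := 193/10000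
  y₀ := 583/100
  y₁ := 28/25
  R₀ := 42979/10000
  R₁ := 116183/100000
  v₀ := fun q => if q then 511/250 else 1
  v₁ := fun q => if q then 598/25 else 1
  lam_pos := by norm_num
  lam_le := by norm_num
  a_ge := by norm_num
  b_ge := by norm_num
  d_ge := by norm_num
  c_ge := by norm_num
  habc := by norm_num
  hB := by norm_num
  z_pos := by norm_num
  y₀_pos := by norm_num
  y₁_pos := by norm_num
  R₀_pos := by norm_num
  R₁_pos := by norm_num
  v₀_ge := by intro q; cases q <;> norm_num
  v₁_ge := by intro q; cases q <;> norm_num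
  v₀_f := by norm_num
  v₁_f := by norm_num
  step₀ := by intro q; cases q <;> norm_num [cellG, cellT, alp]
  step₁ := by intro q; cases q <;> norm_num [cellT]

theorem rc29_good : Good (4/5) (9/10) (41/100) (1) := by
  have hz : rc29.z * rc29.B = 39951/12500 := by norm_num [rc29]
  have hy : rc29.y₀ * rc29.y₁ = 4081/625 := by norm_num [rc29]
  have hR : rc29.R₀ * rc29.R₁ ^ 3 * rc29.B ≤ 7921/2500 * (73999/10000) ^ 3 := by norm_num [rc29]
  refine rc29.good_of _ _ _ _ (by norm_num) (by norm_num) (by norm_num) (by norm_num)
    (7921/2500) (73999/10000) (by norm_num) (by norm_num) ?_ ?_ ?_ ?_ hR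
  · rw [hz]
    exact chkq (C := 7921/2500) (Z := 39951/12500) (by norm_num) (by norm_num) 41 100
      (by norm_num) (by norm_num) (by norm_num) (by norm_num)
  · rw [hz]
    exact chkq (C := 7921/2500) (Z := 39951/12500) (by norm_num) (by norm_num) 1 1
      (by norm_num) (by norm_num) (by norm_num) (by norm_num)
  · rw [hy]
    exact chkq (C := 73999/10000) (Z := 4081/625) (by norm_num) (by norm_num) 4 5
      (by norm_num) (by norm_num) (by norm_num) (by norm_num)
  · rw [hy]
    exact chkq (C := 73999/10000) (Z := 4081/625) (by norm_num) (by norm_num) 9 10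
      (by norm_num) (by norm_num) (by norm_num) (by norm_num)

/-- Certificate 30. -/
noncomputable def rc30 : Cert1 where
  lam := 403/1000
  a := 1109/1000
  b := 1119/500
  d := 1
  c := 1
  B := 2813/10
  z := 69/500000
  y₀ := 14
  y₁ := 23/20
  R₀ := 5541/500
  R₁ := 28879/25000
  v₀ := fun q => if q then 1207/250 else 1
  v₁ := fun q => if q then 1939/10 else 1
  lam_pos := by norm_num
  lam_le := by norm_num
  a_ge := by norm_num
  b_ge := by norm_num
  d_ge := by norm_num
  c_ge := by norm_num
  habc := by norm_num
  hB := by norm_num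
  z_pos := by norm_num
  y₀_pos := by norm_num
  y₁_pos := by norm_num
  R₀_pos := by norm_num
  R₁_pos := by norm_num
  v₀_ge := by intro q; cases q <;> norm_num
  v₁_ge := by intro q; cases q <;> norm_num
  v₀_f := by norm_num
  v₁_f := by norm_num
  step₀ := by intro q; cases q <;> norm_num [cellG, cellT, alp]
  step₁ := by intro q; cases q <;> norm_num [cellT]

theorem rc30_good : Good (9/10) (39/40) (0) (1/10) := by
  have hz : rc30.z * rc30.B = 194097/5000000 := by norm_num [rc30]
  have hy : rc30.y₀ * rc30.y₁ = 161/10 := by norm_num [rc30]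
  have hR : rc30.R₀ * rc30.R₁ ^ 3 * rc30.B ≤ 1 * (8439/500) ^ 3 := by norm_num [rc30]
  refine rc30.good_of _ _ _ _ (by norm_num) (by norm_num) (by norm_num) (by norm_num)
    (1) (8439/500) (by norm_num) (by norm_num) ?_ ?_ ?_ ?_ hR
  · rw [hz]
    exact chkq (C := 1) (Z := 194097/5000000) (by norm_num) (by norm_num) 0 1
      (by norm_num) (by norm_num) (by norm_num) (by norm_num)
  · rw [hz]
    exact chkq (C := 1) (Z := 194097/5000000) (by norm_num) (by norm_num) 1 10
      (by norm_num) (by norm_num) (by norm_num) (by norm_num)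
  · rw [hy]
    exact chkq (C := 8439/500) (Z := 161/10) (by norm_num) (by norm_num) 9 10
      (by norm_num) (by norm_num) (by norm_num) (by norm_num)
  · rw [hy]
    exact chkq (C := 8439/500) (Z := 161/10) (by norm_num) (by norm_num) 39 40
      (by norm_num) (by norm_num) (by norm_num) (by norm_num)

/-- Certificate 31. -/
noncomputable def rc31 : Cert1 where
  lam := 4417/10000
  a := 1
  b := 10471/5000
  d := 10811/10000
  c := 1
  B := 16483/50
  z := 3119/5000000
  y₀ := 281/20
  y₁ := 1143/1000
  R₀ := 13891/1250
  R₁ := 115377/100000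
  v₀ := fun q => if q then 2261/1000 else 1
  v₁ := fun q => if q then 18571/200 else 1
  lam_pos := by norm_num
  lam_le := by norm_num
  a_ge := by norm_num
  b_ge := by norm_num
  d_ge := by norm_num
  c_ge := by norm_num
  habc := by norm_num
  hB := by norm_num
  z_pos := by norm_num
  y₀_pos := by norm_num
  y₁_pos := by norm_num
  R₀_pos := by norm_num
  R₁_pos := by norm_num
  v₀_ge := by intro q; cases q <;> norm_num
  v₁_ge := by intro q; cases q <;> norm_num
  v₀_f := by norm_num
  v₁_f := by norm_num
  step₀ := by intro q; cases q <;> norm_num [cellG, cellT, alp]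
  step₁ := by intro q; cases q <;> norm_num [cellT]

theorem rc31_good : Good (9/10) (39/40) (1/10) (1/4) := by
  have hz : rc31.z * rc31.B = 51410477/250000000 := by norm_num [rc31]
  have hy : rc31.y₀ * rc31.y₁ = 321183/20000 := by norm_num [rc31]
  have hR : rc31.R₀ * rc31.R₁ ^ 3 * rc31.B ≤ 59083/50000 * (42099/2500) ^ 3 := by norm_num [rc31]
  refine rc31.good_of _ _ _ _ (by norm_num) (by norm_num) (by norm_num) (by norm_num)
    (59083/50000) (42099/2500) (by norm_num) (by norm_num) ?_ ?_ ?_ ?_ hR
  · rw [hz]
    exact chkq (C := 59083/50000) (Z := 51410477/250000000) (by norm_num) (by norm_num) 1 10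
      (by norm_num) (by norm_num) (by norm_num) (by norm_num)
  · rw [hz]
    exact chkq (C := 59083/50000) (Z := 51410477/250000000) (by norm_num) (by norm_num) 1 4
      (by norm_num) (by norm_num) (by norm_num) (by norm_num)
  · rw [hy]
    exact chkq (C := 42099/2500) (Z := 321183/20000) (by norm_num) (by norm_num) 9 10
      (by norm_num) (by norm_num) (by norm_num) (by norm_num)
  · rw [hy]
    exact chkq (C := 42099/2500) (Z := 321183/20000) (by norm_num) (by norm_num) 39 40
      (by norm_num) (by norm_num) (by norm_num) (by norm_num)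

/-- Certificate 32. -/
noncomputable def rc32 : Cert1 where
  lam := 423/1000
  a := 1001/1000
  b := 1
  d := 1181/500
  c := 1
  B := 9689/10
  z := 109/50000
  y₀ := 77/5
  y₁ := 109/100
  R₀ := 5186/625
  R₁ := 55053/50000
  v₀ := fun q => if q then 7/4 else 1
  v₁ := fun q => if q then 1809/20 else 1
  lam_pos := by norm_num
  lam_le := by norm_num
  a_ge := by norm_num
  b_ge := by norm_num
  d_ge := by norm_num
  c_ge := by norm_num
  habc := by norm_num
  hB := by norm_num
  z_pos := by norm_num
  y₀_pos := by norm_num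
  y₁_pos := by norm_num
  R₀_pos := by norm_num
  R₁_pos := by norm_num
  v₀_ge := by intro q; cases q <;> norm_num
  v₁_ge := by intro q; cases q <;> norm_num
  v₀_f := by norm_num
  v₁_f := by norm_num
  step₀ := by intro q; cases q <;> norm_num [cellG, cellT, alp]
  step₁ := by intro q; cases q <;> norm_num [cellT]

theorem rc32_good : Good (9/10) (39/40) (1/4) (1) := by
  have hz : rc32.z * rc32.B = 1056101/500000 := by norm_num [rc32]
  have hy : rc32.y₀ * rc32.y₁ = 8393/500 := by norm_num [rc32]
  have hR : rc32.R₀ * rc32.R₁ ^ 3 * rc32.B ≤ 10561/5000 * (4381/250) ^ 3 := by norm_num [rc32]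
  refine rc32.good_of _ _ _ _ (by norm_num) (by norm_num) (by norm_num) (by norm_num)
    (10561/5000) (4381/250) (by norm_num) (by norm_num) ?_ ?_ ?_ ?_ hR
  · rw [hz]
    exact chkq (C := 10561/5000) (Z := 1056101/500000) (by norm_num) (by norm_num) 1 4
      (by norm_num) (by norm_num) (by norm_num) (by norm_num)
  · rw [hz]
    exact chkq (C := 10561/5000) (Z := 1056101/500000) (by norm_num) (by norm_num) 1 1
      (by norm_num) (by norm_num) (by norm_num) (by norm_num)
  · rw [hy]
    exact chkq (C := 4381/250) (Z := 8393/500) (by norm_num) (by norm_num) 9 10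
      (by norm_num) (by norm_num) (by norm_num) (by norm_num)
  · rw [hy]
    exact chkq (C := 4381/250) (Z := 8393/500) (by norm_num) (by norm_num) 39 40
      (by norm_num) (by norm_num) (by norm_num) (by norm_num)

end Vale.Agent.P333.R2.H205
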