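import Mathlib
import Vale.Agent.P333.R2.H205.Certs1
import Vale.Agent.P333.R2.H205.Certs2
import Vale.Agent.P333.R2.H205.Certs3

/-!
The weight bound of the bulk event.
-/

namespace Vale.Agent.P333.R2.H205

open Vale.Agent.P333 Finset

theorem bulk_weight {s K w u : ℕ} (hK : 0 < K) (hw : w ≤ K)
    (hu : u ≤ K * 3) (h3 : (1/40 : ℝ) ≤ (u : ℝ) / (K * 3 : ℕ)) (h4 : (u : ℝ) / (K * 3 : ℕ) ≤ 39/40)
    (T : Finset ((Fin K → Cell) × (Fin (K * 3) → Bool)))
    (hT : ∀ p ∈ T, wOnes K p.1 = w ∧ bOnes K p.1 = u ∧ bones p.2 = u ∧ bad1 s K p.1 p.2) :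
    (T.card : ℝ) * (1 / (K.choose w : ℝ)) * (1 / ((K * 3).choose u : ℝ))
      ≤ (3/4) ^ s * ((K + 1) * ((K * 3 : ℕ) + 1)) := by
  have hK0 : (0 : ℝ) < K := by exact_mod_cast hK
  have h1 : (0 : ℝ) ≤ (w : ℝ) / K := by positivity
  have h2 : (w : ℝ) / K ≤ 1 := by
    rw [div_le_one hK0]
    exact_mod_cast hw
  rcases le_total ((u : ℝ) / (K * 3 : ℕ)) (1/10) with b0 | b0
  · rcases le_total ((w : ℝ) / K) (33/100) with a0 | a0
    · exact rc00_good s K w u hK hw hu h1 a0 h3 b0 T hT
    · rcases le_total ((w : ℝ) / K) (69/100) with a1 | a1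
      · exact rc01_good s K w u hK hw hu a0 a1 h3 b0 T hT
      · rcases le_total ((w : ℝ) / K) (87/100) with a2 | a2
        · exact rc02_good s K w u hK hw hu a1 a2 h3 b0 T hT
        · rcases le_total ((w : ℝ) / K) (97/100) with a3 | a3
          · exact rc03_good s K w u hK hw hu a2 a3 h3 b0 T hT
          · exact rc04_good s K w u hK hw hu a3 h2 h3 b0 T hT
  · rcases le_total ((u : ℝ) / (K * 3 : ℕ)) (1/5) with b1 | b1
    · rcases le_total ((w : ℝ) / K) (29/50) with a0 | a0
      · exact rc05_good s K w u hK hw hu h1 a0 b0 b1 T hT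
      · rcases le_total ((w : ℝ) / K) (19/25) with a1 | a1
        · exact rc06_good s K w u hK hw hu a0 a1 b0 b1 T hT
        · rcases le_total ((w : ℝ) / K) (99/100) with a2 | a2
          · exact rc07_good s K w u hK hw hu a1 a2 b0 b1 T hT
          · exact rc08_good s K w u hK hw hu a2 h2 b0 b1 T hT
    · rcases le_total ((u : ℝ) / (K * 3 : ℕ)) (3/10) with b2 | b2
      · rcases le_total ((w : ℝ) / K) (59/100) with a0 | a0
        · exact rc09_good s K w u hK hw hu h1 a0 b1 b2 T hT
        · rcases le_total ((w : ℝ) / K) (18/25) with a1 | a1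
          · exact rc10_good s K w u hK hw hu a0 a1 b1 b2 T hT
          · exact rc11_good s K w u hK hw hu a1 h2 b1 b2 T hT
      · rcases le_total ((u : ℝ) / (K * 3 : ℕ)) (2/5) with b3 | b3
        · rcases le_total ((w : ℝ) / K) (27/50) with a0 | a0
          · exact rc12_good s K w u hK hw hu h1 a0 b2 b3 T hT
          · rcases le_total ((w : ℝ) / K) (63/100) with a1 | a1
            · exact rc13_good s K w u hK hw hu a0 a1 b2 b3 T hT
            · exact rc14_good s K w u hK hw hu a1 h2 b2 b3 T hT
        · rcases le_total ((u : ℝ) / (K * 3 : ℕ)) (1/2) with b4 | b4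
          · rcases le_total ((w : ℝ) / K) (1/2) with a0 | a0
            · exact rc15_good s K w u hK hw hu h1 a0 b3 b4 T hT
            · rcases le_total ((w : ℝ) / K) (57/100) with a1 | a1
              · exact rc16_good s K w u hK hw hu a0 a1 b3 b4 T hT
              · exact rc17_good s K w u hK hw hu a1 h2 b3 b4 T hT
          · rcases le_total ((u : ℝ) / (K * 3 : ℕ)) (3/5) with b5 | b5
            · rcases le_total ((w : ℝ) / K) (9/20) with a0 | a0
              · exact rc18_good s K w u hK hw hu h1 a0 b4 b5 T hT
              · rcases le_total ((w : ℝ) / K) (13/25) with a1 | a1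
                · exact rc19_good s K w u hK hw hu a0 a1 b4 b5 T hT
                · exact rc20_good s K w u hK hw hu a1 h2 b4 b5 T hT
            · rcases le_total ((u : ℝ) / (K * 3 : ℕ)) (7/10) with b6 | b6
              · rcases le_total ((w : ℝ) / K) (2/5) with a0 | a0
                · exact rc21_good s K w u hK hw hu h1 a0 b5 b6 T hT
                · rcases le_total ((w : ℝ) / K) (49/100) with a1 | a1
                  · exact rc22_good s K w u hK hw hu a0 a1 b5 b6 T hT
                  · exact rc23_good s K w u hK hw hu a1 h2 b5 b6 T hT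
              · rcases le_total ((u : ℝ) / (K * 3 : ℕ)) (4/5) with b7 | b7
                · rcases le_total ((w : ℝ) / K) (33/100) with a0 | a0
                  · exact rc24_good s K w u hK hw hu h1 a0 b6 b7 T hT
                  · rcases le_total ((w : ℝ) / K) (47/100) with a1 | a1
                    · exact rc25_good s K w u hK hw hu a0 a1 b6 b7 T hT
                    · exact rc26_good s K w u hK hw hu a1 h2 b6 b7 T hT
                · rcases le_total ((u : ℝ) / (K * 3 : ℕ)) (9/10) with b8 | b8
                  · rcases le_total ((w : ℝ) / K) (23/100) with a0 | a0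
                    · exact rc27_good s K w u hK hw hu h1 a0 b7 b8 T hT
                    · rcases le_total ((w : ℝ) / K) (41/100) with a1 | a1
                      · exact rc28_good s K w u hK hw hu a0 a1 b7 b8 T hT
                      · exact rc29_good s K w u hK hw hu a1 h2 b7 b8 T hT
                  · rcases le_total ((w : ℝ) / K) (1/10) with a0 | a0
                    · exact rc30_good s K w u hK hw hu h1 a0 b8 h4 T hT
                    · rcases le_total ((w : ℝ) / K) (1/4) with a1 | a1
                      · exact rc31_good s K w u hK hw hu a0 a1 b8 h4 T hT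
                      · exact rc32_good s K w u hK hw hu a1 h2 b8 h4 T hT

end Vale.Agent.P333.R2.H205
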