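import Mathlib
import Vale.Agent.P333.Bdl.B2
import Vale.Agent.P333.R2.H205.Bulk
import Vale.Agent.P333.R2.H99.AmpDef

/-!
Existence of amplifiers with three blocks per contact and expansion factor eight sevenths.
-/

namespace Vale.Agent.P333.R2.H205

open Vale.Agent.P333 Finset

/-- Bulk event. -/
def P1 (s K : ℕ) (l : Fin K → Cell) (f : Fin (K * 3) → Bool) : Prop :=
  bad1 s K l f ∧ (1/40 : ℝ) ≤ (bones f : ℝ) / (K * 3 : ℕ) ∧ (bones f : ℝ) / (K * 3 : ℕ) ≤ 39/40

/-- Plain event. -/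
def P2 (s K : ℕ) (l : Fin K → Cell) (f : Fin (K * 3) → Bool) : Prop :=
  bad2 s K l f ∧ (bones f : ℝ) / (K * 3 : ℕ) ≤ 1/40

open Classical in
theorem card_P1_le {s K : ℕ} (hK : 0 < K) (V : Fin K → Bool) :
    (((univ : Finset (Equiv.Perm (Fin K) × Equiv.Perm (Fin (K * 3)))).filter
      (fun p => ev K (P1 s K) V p)).card : ℝ)
      ≤ (K.factorial : ℝ) * ((K * 3).factorial : ℝ)
        * (((K * 3 : ℕ) + 1) * ((3/4) ^ s * ((K + 1) * ((K * 3 : ℕ) + 1)))) := by
  apply card_ev_le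
  intro u T hu hT
  rcases T.eq_empty_or_nonempty with h0 | ⟨p0, hp0⟩
  · rw [h0]
    simp only [card_empty, Nat.cast_zero, zero_mul]
    positivity
  · have h1 := (hT p0 hp0).2.2.2
    have h2 := (hT p0 hp0).2.2.1
    have h3 := h1.2.1
    have h4 := h1.2.2
    rw [h2] at h3 h4
    exact bulk_weight hK (bones_le V) hu h3 h4 T (fun p hp => by
      obtain ⟨a, b, c, d⟩ := hT p hp
      exact ⟨a, b, c, d.1⟩)

open Classical in
theorem card_P2_le {s K : ℕ} (hK : 0 < K) (hs : 0 < s) :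
    (((univ : Finset (Equiv.Perm (Fin K) × Equiv.Perm (Fin (K * 3)))).filter
      (fun p => ev K (P2 s K) (fun _ => true) p)).card : ℝ)
      ≤ (K.factorial : ℝ) * ((K * 3).factorial : ℝ)
        * (((K * 3 : ℕ) + 1) * ((3/4) ^ s * ((K + 1) * ((K * 3 : ℕ) + 1)))) := by
  apply card_ev_le
  intro u T hu hT
  have hK0 : (0 : ℝ) < K := by exact_mod_cast hK
  rcases T.eq_empty_or_nonempty with h0 | ⟨p0, hp0⟩
  · rw [h0]
    simp only [card_empty, Nat.cast_zero, zero_mul]
    positivity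
  · have h1 := (hT p0 hp0).2.2.2
    have h2 := (hT p0 hp0).2.2.1
    have h4 := h1.2
    rw [h2] at h4
    have hw : bones (fun _ : Fin K => true) = K := by
      simp only [bones, Bool.toNat_true, sum_const, card_univ, Fintype.card_fin, smul_eq_mul, mul_one]
    have hu0 : 0 < u := by
      have h5 := (hT p0 hp0).2.1
      have h6 := h1.1.2
      have h7 : sumLast K p0.1 ≤ bOnes K p0.1 := by
        unfold sumLast bOnes
        apply sum_le_sum
        intro p _
        unfold bones lastB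
        exact single_le_sum (f := fun i => ((p0.1 p).2 i).toNat) (fun _ _ => Nat.zero_le _)
          (mem_univ (2 : Fin 3))
      omega
    have h5 := plain_weight s K u hK hu0 h4 T (fun p hp => by
      obtain ⟨_, b, c, d⟩ := hT p hp
      exact ⟨b, c, d.1⟩)
    rw [hw, Nat.choose_self]
    have h6 : (T.card : ℝ) * (1 / ((1 : ℕ) : ℝ)) * (1 / ((K * 3).choose u : ℝ))
        = (T.card : ℝ) * (1 / ((K * 3).choose u : ℝ)) := by
      norm_num
    rw [h6]
    refine h5.trans ?_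
    calc (3/4 : ℝ) ^ s * ((K * 3 : ℕ) + 1) = (3/4) ^ s * (1 * ((K * 3 : ℕ) + 1)) := by ring
      _ ≤ (3/4) ^ s * ((K + 1) * ((K * 3 : ℕ) + 1)) := by
          gcongr
          linarith only [hK0]

theorem exists_perms (k t s : ℕ) (hkt : 0 < k * t) (hkt2 : 2 ≤ k * t) (hs : 0 < s) (ε : ℝ)
    (hε : 0 < ε)
    (hsmall : (2 ^ k + 1) * (((k * t * 3 : ℕ) + 1) * ((3/4) ^ s
      * (((k * t : ℕ) + 1) * ((k * t * 3 : ℕ) + 1)))) + 3 / (ε * (k * t : ℕ)) < 1) :
    ∃ (σ : Equiv.Perm (Fin (k * t))) (τ : Equiv.Perm (Fin (k * t * 3))),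
      (∀ U : Finset (Fin k), ¬ ev (k * t) (P1 s (k * t)) (markV U) (σ, τ)) ∧
      ¬ ev (k * t) (P2 s (k * t)) (fun _ => true) (σ, τ) ∧ (coinc τ : ℝ) ≤ ε * (k * t : ℕ) := by
  classical
  by_contra hcon
  push Not at hcon
  set Q : ℝ := (((k * t * 3 : ℕ) + 1) * ((3/4) ^ s
      * (((k * t : ℕ) + 1) * ((k * t * 3 : ℕ) + 1)))) with hQ
  have hsub : (univ : Finset (Equiv.Perm (Fin (k * t)) × Equiv.Perm (Fin (k * t * 3)))) ⊆
      ((univ : Finset (Finset (Fin k))).biUnion (fun U =>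
        univ.filter (fun p => ev (k * t) (P1 s (k * t)) (markV U) p)))
      ∪ (univ.filter (fun p => ev (k * t) (P2 s (k * t)) (fun _ => true) p)
      ∪ (univ : Finset (Equiv.Perm (Fin (k * t)))) ×ˢ
        (univ.filter (fun τ : Equiv.Perm (Fin (k * t * 3)) => ε * (k * t : ℕ) < coinc τ))) := by
    intro p _
    rw [mem_union, mem_union, mem_biUnion, mem_product]
    by_cases h1 : ∃ U, ev (k * t) (P1 s (k * t)) (markV U) p
    · obtain ⟨U, hU⟩ := h1
      exact Or.inl ⟨U, mem_univ _, by rw [mem_filter]; exact ⟨mem_univ _, hU⟩⟩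
    · push Not at h1
      by_cases h2 : ev (k * t) (P2 s (k * t)) (fun _ => true) p
      · exact Or.inr (Or.inl (by rw [mem_filter]; exact ⟨mem_univ _, h2⟩))
      · refine Or.inr (Or.inr ⟨mem_univ _, ?_⟩)
        rw [mem_filter]
        exact ⟨mem_univ _, hcon p.1 p.2 h1 h2⟩
  have hcard := (card_le_card hsub).trans ((card_union_le _ _).trans
    (Nat.add_le_add_left (card_union_le _ _) _))
  rw [card_univ, Fintype.card_prod, Fintype.card_perm, Fintype.card_perm, Fintype.card_fin,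
    Fintype.card_fin, card_product, card_univ, Fintype.card_perm, Fintype.card_fin] at hcard
  have hb := (card_biUnion_le (s := (univ : Finset (Finset (Fin k)))) (t := fun U =>
        (univ : Finset (Equiv.Perm (Fin (k * t)) × Equiv.Perm (Fin (k * t * 3)))).filter
          (fun p => ev (k * t) (P1 s (k * t)) (markV U) p)))
  have h1 : ((∑ U : Finset (Fin k), ((univ : Finset (Equiv.Perm (Fin (k * t))
      × Equiv.Perm (Fin (k * t * 3)))).filter
        (fun p => ev (k * t) (P1 s (k * t)) (markV U) p)).card : ℕ) : ℝ)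
      ≤ 2 ^ k * (((k * t).factorial : ℝ) * ((k * t * 3).factorial : ℝ) * Q) := by
    rw [Nat.cast_sum]
    calc _ ≤ ∑ _U : Finset (Fin k),
        (((k * t).factorial : ℝ) * ((k * t * 3).factorial : ℝ) * Q) := by
          apply sum_le_sum
          intro U _
          exact card_P1_le hkt (markV U)
      _ = _ := by
          rw [sum_const, card_univ, Fintype.card_finset, Fintype.card_fin, nsmul_eq_mul]
          push_cast
          ring
  have h2 := card_P2_le (s := s) hkt hs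
  have h3 := card_coinc_le (n := k * t * 3) (by omega) (L := ε * (k * t : ℕ))
    (by have : (0 : ℝ) < (k * t : ℕ) := by exact_mod_cast hkt
        (clear * - hε hkt; positivity))
  have hcard' : ((k * t).factorial : ℝ) * ((k * t * 3).factorial : ℝ)
      ≤ 2 ^ k * (((k * t).factorial : ℝ) * ((k * t * 3).factorial : ℝ) * Q)
        + (((k * t).factorial : ℝ) * ((k * t * 3).factorial : ℝ) * Q
        + ((k * t).factorial : ℝ) * (((k * t * 3).factorial : ℝ) * (3 / (ε * (k * t : ℕ))))) := by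
    have h4 : (((k * t).factorial * (k * t * 3).factorial : ℕ) : ℝ) ≤ _ := Nat.cast_le.mpr hcard
    rw [Nat.cast_add, Nat.cast_add, Nat.cast_mul, Nat.cast_mul] at h4
    have h5 : (0 : ℝ) ≤ ((k * t).factorial : ℝ) := by positivity
    have h6 := mul_le_mul_of_nonneg_left h3 h5
    have h7 : ((((univ : Finset (Finset (Fin k))).biUnion (fun U =>
        (univ : Finset (Equiv.Perm (Fin (k * t)) × Equiv.Perm (Fin (k * t * 3)))).filter
          (fun p => ev (k * t) (P1 s (k * t)) (markV U) p))).card : ℕ) : ℝ) ≤ _ :=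
      (Nat.cast_le.mpr hb).trans h1
    linarith only [h2, h4, h6, h7]
  have hf : (0 : ℝ) < ((k * t).factorial : ℝ) * ((k * t * 3).factorial : ℝ) := by
    have h8 : (0 : ℝ) < ((k * t).factorial : ℝ) := by exact_mod_cast Nat.factorial_pos _
    have h9 : (0 : ℝ) < ((k * t * 3).factorial : ℝ) := by exact_mod_cast Nat.factorial_pos _
    positivity
  have h8 : ((k * t).factorial : ℝ) * ((k * t * 3).factorial : ℝ) * 1
      ≤ ((k * t).factorial : ℝ) * ((k * t * 3).factorial : ℝ)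
        * ((2 ^ k + 1) * Q + 3 / (ε * (k * t : ℕ))) := by
    rw [mul_one]
    refine hcard'.trans (le_of_eq ?_)
    ring
  have h9 := le_of_mul_le_mul_left h8 hf
  linarith only [hsmall, h9]

theorem cellRises_compl {K : ℕ} (l l' : Fin K → Cell) (X X' : Fin K → Bool)
    (h : ∀ p j, (l' p).2 j = !(l p).2 j) (hX : ∀ p, X' p = !X p) :
    cellRises l' X' = cellRises l X := by
  have e : ∑ p, (X (finRotate K p)).toNat = ∑ p, (X p).toNat :=
    Equiv.sum_comp (finRotate K) (fun p => (X p).toNat)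
  have h1 : ∑ p, ((rise (X' p) ((l' p).2 0) + cellIn (l' p).2 + rise (lastB (l' p)) (X' (finRotate K p)))
      + (((l p).2 0).toNat + ((l p).2 1).toNat + ((l p).2 2).toNat
        + (X (finRotate K p)).toNat))
      = ∑ p, ((rise (X p) ((l p).2 0) + cellIn (l p).2 + rise (lastB (l p)) (X (finRotate K p)))
      + ((X p).toNat + ((l p).2 0).toNat + ((l p).2 1).toNat + ((l p).2 2).toNat)) := by
    apply sum_congr rfl
    intro p _
    unfold cellIn lastB
    rw [h, h, h, hX, hX]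
    have a1 := rise_compl (X p) ((l p).2 0)
    have a2 := rise_compl ((l p).2 0) ((l p).2 1)
    have a3 := rise_compl ((l p).2 1) ((l p).2 2)
    have a5 := rise_compl ((l p).2 2) (X (finRotate K p))
    omega
  unfold cellRises
  simp only [sum_add_distrib] at h1 ⊢
  omega

section

variable {k t : ℕ} (σ : Equiv.Perm (Fin (k * t))) (τ : Equiv.Perm (Fin (k * t * 3)))

theorem wOnes_lab (m : (Fin k × Fin t) × Fin 3 → Bool) (U : Finset (Fin k)) :
    wOnes (k * t) (lab σ m (fun c => decide (c.1 ∈ U))) = t * U.card := by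
  unfold wOnes lab
  rw [Equiv.sum_comp (mkE0 σ) (fun c : Fin k × Fin t => (decide (c.1 ∈ U)).toNat),
    Fintype.sum_prod_type]
  have e : ∀ a : Fin k, ∑ _b : Fin t, (decide (a ∈ U)).toNat = t * (decide (a ∈ U)).toNat := by
    intro a
    rw [sum_const, card_univ, Fintype.card_fin, smul_eq_mul]
  calc ∑ a : Fin k, ∑ b : Fin t, (decide ((a, b).1 ∈ U)).toNat
      = ∑ a : Fin k, t * (decide (a ∈ U)).toNat := sum_congr rfl (fun a _ => e a)
    _ = t * U.card := ?_
  rw [← mul_sum]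
  congr 1
  rw [card_eq_sum_ones, ← sum_filter_add_sum_filter_not univ (fun i => i ∈ U)]
  have h1 : ∑ x ∈ univ with x ∈ U, (decide (x ∈ U)).toNat = ∑ x ∈ U, 1 := by
    rw [filter_mem_eq_inter, univ_inter]
    apply sum_congr rfl
    intro x hx
    simp [hx]
  have h2 : ∑ x ∈ univ with x ∉ U, (decide (x ∈ U)).toNat = 0 := by
    apply sum_eq_zero
    intro x hx
    rw [mem_filter] at hx
    simp [hx.2]
  rw [h1, h2, add_zero]

theorem bones_xU (x : Fin k × Fin t → Bool) (m : (Fin k × Fin t) × Fin 3 → Bool)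
    (U : Finset (Fin k)) :
    ∑ p, (x (mkE0 σ p) && (lab σ m (fun c => decide (c.1 ∈ U)) p).1).toNat
      = (univ.filter (fun c : Fin k × Fin t => x c = true ∧ c.1 ∈ U)).card := by
  unfold lab
  rw [Equiv.sum_comp (mkE0 σ) (fun c => (x c && decide (c.1 ∈ U)).toNat), card_filter]
  apply sum_congr rfl
  intro c _
  by_cases h1 : x c = true <;> by_cases h2 : c.1 ∈ U <;> simp [h1, h2]

/-- The plain property. -/
theorem plain_prop {s : ℕ} (h2 : ¬ ev (k * t) (P2 s (k * t)) (fun _ => true) (σ, τ))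
    (m : (Fin k × Fin t) × Fin 3 → Bool) (x : Fin k × Fin t → Bool)
    (hal : (bones (fun i => m (mkE1 σ τ i)) : ℝ) / (k * t * 3 : ℕ) ≤ 1/40) :
    7 * bones (fun p => x (mkE0 σ p))
      ≤ 8 * (cellRises (lab σ m (fun _ => true)) (fun p => x (mkE0 σ p))
      + ∑ i, rise (m (mkE1 σ τ i)) (m (mkE1 σ τ (finRotate _ i)))) + s + 7 := by
  by_contra hcon
  push Not at hcon
  apply h2
  refine ⟨lab σ m (fun _ => true), rfl, ⟨fun _ => rfl, ?_⟩, hal⟩
  exact det2 (lab σ m (fun _ => true)) (fun p => x (mkE0 σ p))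
    (fun i => m (mkE1 σ τ i)) s (by omega)

theorem expands_of {s : ℕ} {ε : ℝ} (hkt : 0 < k * t)
    (h1 : ∀ U : Finset (Fin k), ¬ ev (k * t) (P1 s (k * t)) (markV U) (σ, τ))
    (h2 : ¬ ev (k * t) (P2 s (k * t)) (fun _ => true) (σ, τ))
    (hsl : ((s + 23 : ℕ) : ℝ) ≤ ε * (k * t)) :
    H99.ExpandsK 8 7 k t 2 ε (rot (mkE0 σ)) (rot (mkE1 σ τ)) := by
  intro m x U hcon
  set W : Fin k × Fin t → Bool := fun c => decide (c.1 ∈ U) with hW
  set l := lab σ m W with hl
  set X : Fin (k * t) → Bool := fun p => x (mkE0 σ p) with hX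
  set f : Fin (k * t * 3) → Bool := fun i => m (mkE1 σ τ i) with hf
  set r1 := ∑ i, rise (f i) (f (finRotate _ i)) with hr1
  have e0 : rises0 (rot (mkE0 σ)) m x = cellRises l X := rises0_eq σ m x W
  have e1 : rises1 (rot (mkE1 σ τ)) m = r1 := rises1_eq σ τ m
  have eX : bones X = (univ.filter (fun c => x c = true)).card := bones_x σ x
  have eXU : ∑ p, (X p && (l p).1).toNat
      = (univ.filter (fun c : Fin k × Fin t => x c = true ∧ c.1 ∈ U)).card := bones_xU σ x m U
  have ew : wOnes (k * t) l = t * U.card := wOnes_lab σ m U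
  have hle : ∑ p, (X p && (l p).1).toNat ≤ bones X := by
    unfold bones
    apply sum_le_sum
    intro p _
    cases X p <;> cases (l p).1 <;> decide
  have hle2 : ∑ p, (X p && (l p).1).toNat ≤ wOnes (k * t) l := by
    unfold wOnes
    apply sum_le_sum
    intro p _
    cases X p <;> cases (l p).1 <;> decide
  rw [← eX, ← ew] at hcon
  have key : 7 * ∑ p, (X p && (l p).1).toNat ≤ 8 * (cellRises l X + r1) + s + 23 := by
    by_contra hviol
    push Not at hviol
    rcases le_total ((bones f : ℝ) / (k * t * 3 : ℕ)) (1/40) with ha | ha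
    · have := plain_prop σ τ h2 m x ha
      have e2 : cellRises (lab σ m (fun _ => true)) (fun p => x (mkE0 σ p)) = cellRises l X := rfl
      rw [e2] at this
      have e3 : ∑ i, rise (m (mkE1 σ τ i)) (m (mkE1 σ τ (finRotate _ i))) = r1 := rfl
      rw [e3] at this
      have e4 : bones (fun p => x (mkE0 σ p)) = bones X := rfl
      omega
    · rcases le_total ((bones f : ℝ) / (k * t * 3 : ℕ)) (39/40) with hb | hb
      · apply h1 U
        refine ⟨l, rfl, ?_, ha, hb⟩
        exact det1 hkt l X f s hcon (by omega)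
      · have hc : (bones (fun i => (fun b => !m b) (mkE1 σ τ i)) : ℝ) / (k * t * 3 : ℕ)
            ≤ 1/40 := by
          have e5 := bones_compl f (fun i => !f i) (fun _ => rfl)
          have hN : (0 : ℝ) < (k * t * 3 : ℕ) := by
            have : 0 < k * t * 3 := by omega
            exact_mod_cast this
          have e6 : (bones (fun i => !f i) : ℝ) + bones f = (k * t * 3 : ℕ) := by exact_mod_cast e5
          have e7 : bones (fun i => (fun b => !m b) (mkE1 σ τ i)) = bones (fun i => !f i) := rfl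
          rw [e7, div_le_iff₀ hN]
          rw [le_div_iff₀ hN] at hb
          linarith only [hb, e6]
        have := plain_prop σ τ h2 (fun b => !m b) (fun c => !x c) hc
        have e8 : cellRises (lab σ (fun b => !m b) (fun _ => true)) (fun p => !x (mkE0 σ p))
            = cellRises l X := cellRises_compl l _ X _ (fun _ _ => rfl) (fun _ => rfl)
        have e9 : ∑ i, rise (!m (mkE1 σ τ i)) (!m (mkE1 σ τ (finRotate _ i))) = r1 :=
          chainRises_compl f (fun i => !f i) (fun _ => rfl)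
        rw [e8, e9] at this
        have e10 := bones_compl X (fun p => !x (mkE0 σ p)) (fun _ => rfl)
        omega
  rw [e0, e1, ← eXU]
  have h3 : ((7 * ∑ p, (X p && (l p).1).toNat : ℕ) : ℝ)
      ≤ ((8 * (cellRises l X + r1) + s + 23 : ℕ) : ℝ) :=
    Nat.cast_le.mpr key
  push_cast at h3 hsl ⊢
  linarith only [h3, hsl]

end

theorem coinc_of {k t : ℕ} (σ : Equiv.Perm (Fin (k * t))) (τ : Equiv.Perm (Fin (k * t * 3)))
    {ε : ℝ} (h : (coinc τ : ℝ) ≤ ε * (k * t : ℕ)) :
    FewCoinc k t 2 ε (rot (mkE0 σ)) (rot (mkE1 σ τ)) := by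
  unfold FewCoinc
  have h1 : (((univ.filter (fun b => rot (mkE1 σ τ) b = s0 (β := 2) (rot (mkE0 σ)) b
      ∨ rot (mkE1 σ τ) (s0 (β := 2) (rot (mkE0 σ)) b) = b)).card : ℕ) : ℝ) ≤ (coinc τ : ℝ) :=
    Nat.cast_le.mpr (coinc_eq σ τ)
  refine le_trans ?_ (h1.trans (h.trans (le_of_eq (by push_cast; ring))))
  apply le_of_eq
  congr!

/-- Polynomial times exponential decay. -/
theorem decay (A : ℝ) : ∃ s0 : ℕ, ∀ s, s0 ≤ s →
    A * ((s + 1 : ℕ) : ℝ) ^ 3 * (3/4) ^ s < 1/2 := by
  have h := tendsto_pow_const_mul_const_pow_of_abs_lt_one 3 (r := 3/4) (by norm_num [abs_of_pos])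
  have h2 : Filter.Tendsto (fun s : ℕ => A * (4/3) * (((s + 1 : ℕ) : ℝ) ^ 3 * (3/4) ^ (s + 1)))
      Filter.atTop (nhds (A * (4/3) * 0)) :=
    ((Filter.tendsto_add_atTop_iff_nat (f := fun n : ℕ => ((n : ℝ) ^ 3 * (3/4) ^ n)) 1).mpr h).const_mul _
  rw [mul_zero] at h2
  have h3 := h2.eventually (gt_mem_nhds (show (0 : ℝ) < 1/2 by norm_num))
  rw [Filter.eventually_atTop] at h3
  obtain ⟨s0, hs0⟩ := h3
  refine ⟨s0, fun s hs => ?_⟩
  have := hs0 s hs
  rw [pow_succ (3/4 : ℝ) s] at this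
  calc A * ((s + 1 : ℕ) : ℝ) ^ 3 * (3/4) ^ s
      = A * (4/3) * (((s + 1 : ℕ) : ℝ) ^ 3 * ((3/4) ^ s * (3/4))) := by ring
    _ < 1/2 := this

/-- Amplifiers with three blocks per contact and factor eight sevenths exist. -/
theorem ampsExistK_8_7 : H99.AmpsExistK 8 7 := by
  intro ε hε k hk
  obtain ⟨M, hM⟩ := exists_nat_gt (2 / ε)
  have hM0 : (0 : ℝ) < M := lt_trans (by positivity) hM
  have hMn : 0 < M := by exact_mod_cast hM0
  have hMε : 2 < ε * M := by
    rw [div_lt_iff₀ hε] at hM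
    linarith only [hM]
  obtain ⟨s0, hs0⟩ := decay ((2 ^ k + 1) * (125 * (M : ℝ) ^ 3))
  obtain ⟨L, hL⟩ := exists_nat_gt (50 / ε)
  refine ⟨M * (s0 + 1) + L + 2, fun t ht => ?_⟩
  have hkt : 0 < k * t := by
    apply Nat.mul_pos hk
    omega
  have htK : t ≤ k * t := Nat.le_mul_of_pos_left t hk
  set K := k * t with hK
  set s := K / M with hs
  have hs1 : s0 + 1 ≤ s := by
    rw [hs, Nat.le_div_iff_mul_le hMn]
    calc (s0 + 1) * M = M * (s0 + 1) := by ring
      _ ≤ K := by omega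
  have hs2 : K < M * (s + 1) := by
    rw [hs]
    exact Nat.lt_mul_div_succ K hMn
  have hs3 : (s : ℝ) * M ≤ K := by
    have : s * M ≤ K := Nat.div_mul_le_self K M
    exact_mod_cast this
  have hKL : 50 / ε < (K : ℝ) := by
    refine hL.trans_le ?_
    have : L ≤ K := by omega
    exact_mod_cast this
  have hKε : 50 < ε * K := by
    rw [div_lt_iff₀ hε] at hKL
    linarith only [hKL]
  have hK0 : (0 : ℝ) < K := by exact_mod_cast hkt
  have hsl : ((s + 23 : ℕ) : ℝ) ≤ ε * K := by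
    push_cast
    have h1 : (s : ℝ) * 2 ≤ ε * K := by
      have h2 : (s : ℝ) * 2 ≤ s * (ε * M) := by
        apply mul_le_mul_of_nonneg_left hMε.le
        (clear * -; positivity)
      have h3 : ε * (s * M) ≤ ε * K := mul_le_mul_of_nonneg_left hs3 hε.le
      nlinarith only [h2, h3]
    linarith only [hKε, h1]
  have hsmall : (2 ^ k + 1) * (((K * 3 : ℕ) + 1) * ((3/4) ^ s
      * (((K : ℕ) + 1) * ((K * 3 : ℕ) + 1)))) + 3 / (ε * (K : ℕ)) < 1 := by
    have h1 := hs0 s (by omega)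
    have h2 : 3 / (ε * (K : ℕ)) < (1/2 : ℝ) := by
      rw [div_lt_iff₀ (by positivity)]
      linarith only [hKε]
    have h3 : ((K * 3 : ℕ) : ℝ) + 1 ≤ 5 * ((M : ℝ) * ((s + 1 : ℕ) : ℝ)) := by
      have : K * 3 + 1 ≤ 5 * (M * (s + 1)) := by omega
      exact_mod_cast this
    have h4 : ((K : ℕ) : ℝ) + 1 ≤ 5 * ((M : ℝ) * ((s + 1 : ℕ) : ℝ)) := by
      have : K + 1 ≤ 5 * (M * (s + 1)) := by omega
      exact_mod_cast this
    have h5 : (2 ^ k + 1 : ℝ) * (((K * 3 : ℕ) + 1) * ((3/4) ^ s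
        * (((K : ℕ) + 1) * ((K * 3 : ℕ) + 1))))
        ≤ (2 ^ k + 1) * ((5 * ((M : ℝ) * ((s + 1 : ℕ) : ℝ))) * ((3/4) ^ s
        * ((5 * ((M : ℝ) * ((s + 1 : ℕ) : ℝ))) * (5 * ((M : ℝ) * ((s + 1 : ℕ) : ℝ)))))) := by
      (clear * - h3 h4 hkt hMn; gcongr)
    have h6 : (2 ^ k + 1 : ℝ) * ((5 * ((M : ℝ) * ((s + 1 : ℕ) : ℝ))) * ((3/4) ^ s
        * ((5 * ((M : ℝ) * ((s + 1 : ℕ) : ℝ))) * (5 * ((M : ℝ) * ((s + 1 : ℕ) : ℝ))))))
        = (2 ^ k + 1) * (125 * (M : ℝ) ^ 3) * ((s + 1 : ℕ) : ℝ) ^ 3 * (3/4) ^ s := by ring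
    linarith only [h1, h2, h5, h6]
  obtain ⟨σ, τ, g1, g2, g3⟩ := exists_perms k t s hkt (by omega) (by omega) ε hε hsmall
  have hKc : (K : ℝ) = (k : ℝ) * t := by rw [hK]; push_cast; ring
  exact ⟨⟨mkE0 σ, mkE1 σ τ, expands_of σ τ hkt g1 g2 (by rw [← hKc]; exact hsl),
    coinc_of σ τ g3⟩⟩

end Vale.Agent.P333.R2.H205
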